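import Vale.Agent.P141.ANA1

/-!
# P141: module ANA
-/

open MeasureTheory Filter Topology
open scoped ENNReal NNReal SchwartzMap ContDiff

namespace Vale.P141

noncomputable section

variable {N : ℕ} [NeZero N]

theorem Npos : (1 : ℝ) ≤ N := by
  exact_mod_cast Nat.one_le_iff_ne_zero.2 (NeZero.ne N)

theorem shift_cs (G : ZMod N → ℝ) (c : ℝ) :
    HasCompactSupport (fun y : ℝ => ((comb G (y + c) : ℝ) : ℂ)) := by
  apply HasCompactSupport.of_support_subset_isCompact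
    (isCompact_Icc (a := -3 * (N : ℝ) - 1 / 4 - c) (b := (N : ℝ) - c))
  intro y hy
  have h : comb G (y + c) ≠ 0 := by
    intro h0
    apply hy
    simp [h0]
  have := comb_range h
  exact ⟨by linarith [this.1], by linarith [this.2]⟩

theorem shift_cd (G : ZMod N → ℝ) (c : ℝ) :
    ContDiff ℝ ∞ (fun y : ℝ => ((comb G (y + c) : ℝ) : ℂ)) :=
  Complex.ofRealCLM.contDiff.comp ((comb_contDiff G).comp (contDiff_id.add contDiff_const))

/-- The Schwartz function `y ↦ comb G (y + c)`. -/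
def shiftS (G : ZMod N → ℝ) (c : ℝ) : 𝓢(ℝ, ℂ) :=
  (shift_cs G c).toSchwartzMap (shift_cd G c)

theorem shiftS_apply (G : ZMod N → ℝ) (c y : ℝ) :
    shiftS G c y = ((comb G (y + c) : ℝ) : ℂ) := rfl

theorem shiftS_coe (G : ZMod N → ℝ) (c : ℝ) :
    (shiftS G c : ℝ → ℂ) = fun y : ℝ => ((comb G (y + c) : ℝ) : ℂ) := rfl

/-- The real integrand without the kernel. -/
def Phi (G₁ G₂ G₃ : ZMod N → ℝ) (x t : ℝ) : ℝ :=
  comb G₁ (x - t + 5 * N) * comb G₂ (x - 2 * t + 10 * N) * comb G₃ (x - 3 * t + 15 * N)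

theorem Phi_supp {G₁ G₂ G₃ : ZMod N → ℝ} {x t : ℝ} (h : Phi G₁ G₂ G₃ x t ≠ 0) :
    (N : ℝ) / 2 < t ∧ t < 10 * N := by
  unfold Phi at h
  have h1 : comb G₁ (x - t + 5 * N) ≠ 0 := fun h0 => h (by rw [h0]; ring)
  have h2 : comb G₂ (x - 2 * t + 10 * N) ≠ 0 := fun h0 => h (by rw [h0]; ring)
  have a1 := comb_range h1
  have a2 := comb_range h2
  have hN := Npos (N := N)
  constructor
  · linarith [a1.1, a1.2, a2.1, a2.2]
  · linarith [a1.1, a1.2, a2.1, a2.2]

theorem Phi_nonneg {G₁ G₂ G₃ : ZMod N → ℝ} (h1 : ∀ a, 0 ≤ G₁ a) (h2 : ∀ a, 0 ≤ G₂ a)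
    (h3 : ∀ a, 0 ≤ G₃ a) (x t : ℝ) : 0 ≤ Phi G₁ G₂ G₃ x t :=
  mul_nonneg (mul_nonneg (comb_nonneg h1 _) (comb_nonneg h2 _)) (comb_nonneg h3 _)

theorem Phi_cont (G₁ G₂ G₃ : ZMod N → ℝ) (x : ℝ) : Continuous (Phi G₁ G₂ G₃ x) := by
  unfold Phi
  have c1 := (comb_contDiff G₁).continuous
  have c2 := (comb_contDiff G₂).continuous
  have c3 := (comb_contDiff G₃).continuous
  fun_prop

theorem Phi_div_int (G₁ G₂ G₃ : ZMod N → ℝ) (x : ℝ) :
    Integrable (fun t => Phi G₁ G₂ G₃ x t / t) := by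
  have hN := Npos (N := N)
  have hsub : Function.support (fun t => Phi G₁ G₂ G₃ x t / t) ⊆
      Set.Icc ((N : ℝ) / 2) (10 * N) := by
    intro t ht
    have h : Phi G₁ G₂ G₃ x t ≠ 0 := by
      intro h0
      apply ht
      simp [h0]
    have := Phi_supp h
    exact ⟨this.1.le, this.2.le⟩
  rw [← integrableOn_iff_integrable_of_support_subset hsub]
  apply ContinuousOn.integrableOn_Icc
  apply ContinuousOn.div (Phi_cont G₁ G₂ G₃ x).continuousOn continuousOn_id
  intro t ht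
  have : 0 < t := by linarith [ht.1]
  exact this.ne'

theorem THT_shift (G₁ G₂ G₃ : ZMod N → ℝ) (x : ℝ) :
    THT (shiftS G₁ (5 * N)) (shiftS G₂ (10 * N)) (shiftS G₃ (15 * N)) x =
      ((∫ t, Phi G₁ G₂ G₃ x t / t : ℝ) : ℂ) := by
  have hN := Npos (N := N)
  have hint : ∀ t : ℝ, shiftS G₁ (5 * N) (x - t) * shiftS G₂ (10 * N) (x - 2 * t) *
      shiftS G₃ (15 * N) (x - 3 * t) / (t : ℂ) = ((Phi G₁ G₂ G₃ x t / t : ℝ) : ℂ) := by
    intro t
    simp only [shiftS_apply, Phi]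
    push_cast
    ring
  have key : ∀ᶠ q : ℝ × ℝ in (𝓝[>] (0 : ℝ)) ×ˢ (atTop : Filter ℝ),
      truncT (shiftS G₁ (5 * N)) (shiftS G₂ (10 * N)) (shiftS G₃ (15 * N)) q.1 q.2 x =
        ((∫ t, Phi G₁ G₂ G₃ x t / t : ℝ) : ℂ) := by
    have e1 : ∀ᶠ ε in 𝓝[>] (0 : ℝ), ε ∈ Set.Ioo (0 : ℝ) ((N : ℝ) / 2) :=
      Ioo_mem_nhdsGT (by linarith)
    have e2 : ∀ᶠ R : ℝ in atTop, 10 * (N : ℝ) < R := eventually_gt_atTop _
    filter_upwards [e1.prod_mk e2] with q hq
    unfold truncT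
    simp_rw [hint]
    rw [setIntegral_eq_integral_of_forall_compl_eq_zero]
    · exact integral_complex_ofReal
    intro t ht
    by_contra hne
    apply ht
    have h : Phi G₁ G₂ G₃ x t ≠ 0 := by
      intro h0
      apply hne
      simp [h0]
    have hs := Phi_supp h
    have htpos : 0 < t := by linarith [hs.1]
    rw [Set.mem_setOf_eq, abs_of_pos htpos]
    exact ⟨by linarith [hq.1.2, hs.1], by linarith [hq.2, hs.2]⟩
  unfold THT
  apply Tendsto.limUnder_eq
  exact (tendsto_const_nhds).congr' (key.mono fun q hq => hq.symm)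

/-- Lower bound of the integral near a point of `X`. -/
theorem int_lower {G₁ G₂ G₃ : ZMod N → ℝ} (h1 : ∀ a, 0 ≤ G₁ a) (h2 : ∀ a, 0 ≤ G₂ a)
    (h3 : ∀ a, 0 ≤ G₃ a) (x₀ : ZMod N) (x : ℝ) (hx : |x - (x₀.val : ℝ)| ≤ 1 / 64) :
    (∑ τ : ZMod N, G₁ (x₀ - τ) * G₂ (x₀ - 2 * τ) * G₃ (x₀ - 3 * τ)) / (320 * N) ≤
      ∫ t, Phi G₁ G₂ G₃ x t / t := by
  have hN := Npos (N := N)
  have hval : ∀ τ : ZMod N, (τ.val : ℝ) + 1 ≤ N := by
    intro τ
    have : τ.val + 1 ≤ N := ZMod.val_lt τ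
    exact_mod_cast this
  have hval0 : ∀ τ : ZMod N, (0 : ℝ) ≤ (τ.val : ℝ) := fun τ => by positivity
  rw [abs_le] at hx
  set c : ZMod N → ℝ := fun τ => G₁ (x₀ - τ) * G₂ (x₀ - 2 * τ) * G₃ (x₀ - 3 * τ) / (10 * N)
    with hc
  have hc0 : ∀ τ, 0 ≤ c τ := fun τ => by
    apply div_nonneg (mul_nonneg (mul_nonneg (h1 _) (h2 _)) (h3 _)) (by positivity)
  set I : ZMod N → Set ℝ := fun τ =>
    Set.Icc ((τ.val : ℝ) + 5 * N - 1 / 64) ((τ.val : ℝ) + 5 * N + 1 / 64) with hI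
  have hin : ∀ τ t, t ∈ I τ → c τ ≤ Phi G₁ G₂ G₃ x t / t := by
    intro τ t ht
    have ht1 := ht.1
    have ht2 := ht.2
    have hv := hval τ
    have hv0 := hval0 τ
    have hx0 := hval x₀
    have hx00 := hval0 x₀
    have tpos : 0 < t := by linarith
    have hcast1 : (((x₀.val : ℤ) - (τ.val : ℤ) : ℤ) : ZMod N) = x₀ - τ := by
      push_cast; simp
    have hcast2 : (((x₀.val : ℤ) - 2 * (τ.val : ℤ) : ℤ) : ZMod N) = x₀ - 2 * τ := by
      push_cast; simp
    have hcast3 : (((x₀.val : ℤ) - 3 * (τ.val : ℤ) : ℤ) : ZMod N) = x₀ - 3 * τ := by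
      push_cast; simp
    have n1 : x₀.val < N := ZMod.val_lt x₀
    have n2 : τ.val < N := ZMod.val_lt τ
    have g1 : G₁ (x₀ - τ) ≤ comb G₁ (x - t + 5 * N) := by
      rw [← hcast1]
      apply comb_ge h1 _ (by omega) (by omega)
      push_cast
      rw [abs_le]
      constructor <;> linarith
    have g2 : G₂ (x₀ - 2 * τ) ≤ comb G₂ (x - 2 * t + 10 * N) := by
      rw [← hcast2]
      apply comb_ge h2 _ (by omega) (by omega)
      push_cast
      rw [abs_le]
      constructor <;> linarith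
    have g3 : G₃ (x₀ - 3 * τ) ≤ comb G₃ (x - 3 * t + 15 * N) := by
      rw [← hcast3]
      apply comb_ge h3 _ (by omega) (by omega)
      push_cast
      rw [abs_le]
      constructor <;> linarith
    have gP : G₁ (x₀ - τ) * G₂ (x₀ - 2 * τ) * G₃ (x₀ - 3 * τ) ≤ Phi G₁ G₂ G₃ x t := by
      unfold Phi
      exact mul_le_mul (mul_le_mul g1 g2 (h2 _) (comb_nonneg h1 _)) g3 (h3 _)
        (mul_nonneg (comb_nonneg h1 _) (comb_nonneg h2 _))
    simp only [hc]
    apply div_le_div₀ (Phi_nonneg h1 h2 h3 x t) gP tpos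
    linarith
  have hpt : ∀ t, ∑ τ : ZMod N, (I τ).indicator (fun _ => c τ) t ≤
      Phi G₁ G₂ G₃ x t / t := by
    intro t
    by_cases h : ∃ τ, t ∈ I τ
    · obtain ⟨τ, hτ⟩ := h
      rw [Finset.sum_eq_single τ]
      · rw [Set.indicator_of_mem hτ]
        exact hin τ t hτ
      · intro τ' _ hne
        apply Set.indicator_of_notMem
        intro hτ'
        apply hne
        have a1 := hτ.1
        have a2 := hτ.2
        have b1 := hτ'.1
        have b2 := hτ'.2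
        apply ZMod.val_injective N
        have c1 : ((τ'.val : ℤ) : ℝ) - ((τ.val : ℤ) : ℝ) < 1 := by push_cast; linarith
        have c2 : -1 < ((τ'.val : ℤ) : ℝ) - ((τ.val : ℤ) : ℝ) := by push_cast; linarith
        have d1 : (τ'.val : ℤ) - (τ.val : ℤ) < 1 := by exact_mod_cast c1
        have d2 : -1 < (τ'.val : ℤ) - (τ.val : ℤ) := by exact_mod_cast c2
        omega
      · intro h; exact absurd (Finset.mem_univ τ) h
    · push Not at h
      rw [Finset.sum_eq_zero (fun τ _ => Set.indicator_of_notMem (h τ) _)]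
      by_cases h0 : Phi G₁ G₂ G₃ x t = 0
      · simp [h0]
      · have := Phi_supp h0
        apply div_nonneg (Phi_nonneg h1 h2 h3 x t)
        linarith [this.1]
  have hIint : ∀ τ, Integrable ((I τ).indicator (fun _ : ℝ => c τ)) := by
    intro τ
    apply (integrable_indicator_iff measurableSet_Icc).2
    exact integrableOn_const (by simp [hI]) (by simp)
  have h4 : ∫ t, ∑ τ : ZMod N, (I τ).indicator (fun _ => c τ) t ≤
      ∫ t, Phi G₁ G₂ G₃ x t / t :=
    integral_mono (integrable_finsetSum _ fun τ _ => hIint τ) (Phi_div_int G₁ G₂ G₃ x) hpt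
  rw [integral_finsetSum _ fun τ _ => hIint τ] at h4
  have h5 : ∀ τ, ∫ t, (I τ).indicator (fun _ : ℝ => c τ) t = c τ / 32 := by
    intro τ
    rw [integral_indicator_const _ measurableSet_Icc]
    simp only [hI, measureReal_def, Real.volume_Icc, smul_eq_mul]
    rw [ENNReal.toReal_ofReal (by linarith)]
    ring
  simp_rw [h5] at h4
  refine le_trans (le_of_eq ?_) h4
  rw [← Finset.sum_div]
  simp only [hc]
  rw [← Finset.sum_div]
  field_simp
  ring

theorem ana_main : ANAStmt := by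
  intro p₁ p₂ p₃ r hp1 hp2 hp3 hr hb
  obtain ⟨C, hC⟩ := hb
  refine ⟨320 * (32 : ℝ) ^ (1 / r) * ((C : ℝ) + 1) *
    ((4 : ℝ) ^ (1 / p₁) * (4 : ℝ) ^ (1 / p₂) * (4 : ℝ) ^ (1 / p₃)), by positivity, ?_⟩
  intro N _ G₁ G₂ G₃ h1 h2 h3 X lam hlam hX
  have hN := Npos (N := N)
  have hr0 : ENNReal.ofReal r ≠ 0 := by simpa using hr
  have HB := hC (shiftS G₁ (5 * N)) (shiftS G₂ (10 * N)) (shiftS G₃ (15 * N))
  -- lower bound
  set J : ZMod N → Set ℝ := fun a => Set.Icc ((a.val : ℝ) - 1 / 64) ((a.val : ℝ) + 1 / 64)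
    with hJ
  set U : Set ℝ := ⋃ a ∈ X, J a with hU
  have hUm : MeasurableSet U := by
    apply Finset.measurableSet_biUnion
    intro a _
    exact measurableSet_Icc
  have hlow : ∀ x : ℝ, ‖U.indicator (fun _ => (lam / (320 * N) : ℝ)) x‖ ≤
      ‖THT (shiftS G₁ (5 * N)) (shiftS G₂ (10 * N)) (shiftS G₃ (15 * N)) x‖ := by
    intro x
    by_cases hx : x ∈ U
    · rw [Set.indicator_of_mem hx, THT_shift, Complex.norm_real]
      simp only [hU, Set.mem_iUnion] at hx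
      obtain ⟨a, ha, hxa⟩ := hx
      have hxa' : |x - (a.val : ℝ)| ≤ 1 / 64 := by
        rw [abs_le]; exact ⟨by linarith [hxa.1], by linarith [hxa.2]⟩
      have := int_lower h1 h2 h3 a x hxa'
      have h5 : lam / (320 * N) ≤
          (∑ τ : ZMod N, G₁ (a - τ) * G₂ (a - 2 * τ) * G₃ (a - 3 * τ)) / (320 * N) := by
        apply div_le_div_of_nonneg_right (hX a ha) (by positivity)
      rw [Real.norm_of_nonneg (by positivity)]
      exact (h5.trans this).trans (Real.le_norm_self _)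
    · rw [Set.indicator_of_notMem hx, norm_zero]
      exact norm_nonneg _
  have hlow2 := eLpNorm_mono (p := ENNReal.ofReal r) (μ := volume) hlow
  rw [eLpNorm_indicator_const hUm hr0 ENNReal.ofReal_ne_top, ENNReal.toReal_ofReal hr.le]
    at hlow2
  have hvol : volume U = ENNReal.ofReal ((X.card : ℝ) / 32) := by
    rw [hU, measure_biUnion_finset]
    · have : ∀ a ∈ X, volume (J a) = ENNReal.ofReal (1 / 32) := by
        intro a _
        simp only [hJ, Real.volume_Icc]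
        congr 1; ring
      rw [Finset.sum_congr rfl this, Finset.sum_const, nsmul_eq_mul,
        ← ENNReal.ofReal_natCast, ← ENNReal.ofReal_mul (by positivity)]
      congr 1; ring
    · intro a _ b _ hab
      apply Set.disjoint_left.2
      intro y hya hyb
      apply hab
      have a1 := hya.1
      have a2 := hya.2
      have b1 := hyb.1
      have b2 := hyb.2
      apply ZMod.val_injective N
      have c1 : ((a.val : ℤ) : ℝ) - ((b.val : ℤ) : ℝ) < 1 := by push_cast; linarith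
      have c2 : -1 < ((a.val : ℤ) : ℝ) - ((b.val : ℤ) : ℝ) := by push_cast; linarith
      have d1 : (a.val : ℤ) - (b.val : ℤ) < 1 := by exact_mod_cast c1
      have d2 : -1 < (a.val : ℤ) - (b.val : ℤ) := by exact_mod_cast c2
      omega
    · intro a _; exact measurableSet_Icc
  rw [hvol, ENNReal.ofReal_rpow_of_nonneg (by positivity) (by positivity),
    ← ofReal_norm, Real.norm_of_nonneg (by positivity),
    ← ENNReal.ofReal_mul (by positivity)] at hlow2
  -- upper bound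
  have s1 : 0 ≤ ∑ a, G₁ a ^ p₁ := Finset.sum_nonneg fun a _ => Real.rpow_nonneg (h1 a) _
  have s2 : 0 ≤ ∑ a, G₂ a ^ p₂ := Finset.sum_nonneg fun a _ => Real.rpow_nonneg (h2 a) _
  have s3 : 0 ≤ ∑ a, G₃ a ^ p₃ := Finset.sum_nonneg fun a _ => Real.rpow_nonneg (h3 a) _
  have u1 := comb_norm h1 (by linarith : 0 < p₁) (5 * N)
  have u2 := comb_norm h2 (by linarith : 0 < p₂) (10 * N)
  have u3 := comb_norm h3 (by linarith : 0 < p₃) (15 * N)
  have hup : eLpNorm (THT (shiftS G₁ (5 * N)) (shiftS G₂ (10 * N)) (shiftS G₃ (15 * N)))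
      (ENNReal.ofReal r) volume ≤ ENNReal.ofReal (C *
        ((4 * ∑ a, G₁ a ^ p₁) ^ (1 / p₁) * (4 * ∑ a, G₂ a ^ p₂) ^ (1 / p₂) *
          (4 * ∑ a, G₃ a ^ p₃) ^ (1 / p₃))) := by
    refine HB.trans ?_
    rw [ENNReal.ofReal_mul (by positivity), ENNReal.ofReal_mul (by positivity),
      ENNReal.ofReal_mul (by positivity), ENNReal.ofReal_coe_nnreal]
    rw [← shiftS_coe] at u1 u2 u3
    gcongr
  have hfin := hlow2.trans hup
  rw [ENNReal.ofReal_le_ofReal_iff (by positivity)] at hfin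
  rw [Real.div_rpow (by positivity) (by positivity), Real.mul_rpow (by norm_num) s1,
    Real.mul_rpow (by norm_num) s2, Real.mul_rpow (by norm_num) s3] at hfin
  set P1 := (∑ a, G₁ a ^ p₁) ^ (1 / p₁) with hP1
  set P2 := (∑ a, G₂ a ^ p₂) ^ (1 / p₂) with hP2
  set P3 := (∑ a, G₃ a ^ p₃) ^ (1 / p₃) with hP3
  have q1 : 0 ≤ P1 := by positivity
  have q2 : 0 ≤ P2 := by positivity
  have q3 : 0 ≤ P3 := by positivity
  set Y := (X.card : ℝ) ^ (1 / r) with hY
  set D := (32 : ℝ) ^ (1 / r) with hD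
  have hD0 : 0 < D := by positivity
  set K := (4 : ℝ) ^ (1 / p₁) * (4 : ℝ) ^ (1 / p₂) * (4 : ℝ) ^ (1 / p₃) with hK
  have hK0 : 0 < K := by positivity
  have e1 : lam / (320 * N) * (Y / D) = (lam * Y) / (320 * N * D) := by
    field_simp
  rw [e1, div_le_iff₀ (by positivity)] at hfin
  refine hfin.trans ?_
  have e2 : (C : ℝ) * ((4 : ℝ) ^ (1 / p₁) * P1 * ((4 : ℝ) ^ (1 / p₂) * P2) *
      ((4 : ℝ) ^ (1 / p₃) * P3)) * (320 * N * D) =
      320 * D * C * K * N * (P1 * P2 * P3) := by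
    rw [hK]; ring
  rw [e2]
  have hC0 : (0 : ℝ) ≤ C := C.2
  have : 320 * D * (C : ℝ) * K * N * (P1 * P2 * P3) ≤
      320 * D * ((C : ℝ) + 1) * K * N * (P1 * P2 * P3) := by
    gcongr
    linarith
  exact this

end

end Vale.P141
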