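import Vale.Agent.P141.Mods

/-!
# P141: the bump combs
-/

open MeasureTheory Filter Topology
open scoped ENNReal NNReal SchwartzMap ContDiff

namespace Vale.P141

noncomputable section

/-- The bump. -/
def psiB : ContDiffBump (0 : ℝ) where
  rIn := 1 / 8
  rOut := 1 / 4
  rIn_pos := by norm_num
  rIn_lt_rOut := by norm_num

theorem psi_nonneg (y : ℝ) : 0 ≤ psiB y := psiB.nonneg

theorem psi_le (y : ℝ) : psiB y ≤ 1 := psiB.le_one

theorem psi_one {y : ℝ} (h : |y| ≤ 1 / 8) : psiB y = 1 := by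
  apply psiB.one_of_mem_closedBall
  simpa [Metric.mem_closedBall, Real.dist_eq, psiB] using h

theorem psi_ne {y : ℝ} (h : psiB y ≠ 0) : |y| < 1 / 4 := by
  have : y ∈ Function.support psiB := h
  rw [psiB.support_eq] at this
  simpa [Metric.mem_ball, Real.dist_eq, psiB] using this

/-- Index set of the teeth. -/
def idxP (N : ℕ) [NeZero N] : Finset (ℤ × ZMod N) := Finset.Icc (-3 : ℤ) 0 ×ˢ Finset.univ

/-- Position of a tooth. -/
def pos (N : ℕ) (q : ℤ × ZMod N) : ℤ := q.1 * N + q.2.val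

theorem pos_inj (N : ℕ) [NeZero N] {q q' : ℤ × ZMod N} (h : pos N q = pos N q') : q = q' := by
  have hN : (0 : ℤ) < N := by exact_mod_cast Nat.pos_of_ne_zero (NeZero.ne N)
  have v1 : (q.2.val : ℤ) < N := by exact_mod_cast ZMod.val_lt q.2
  have v2 : (q'.2.val : ℤ) < N := by exact_mod_cast ZMod.val_lt q'.2
  have w1 : (0 : ℤ) ≤ (q.2.val : ℤ) := by positivity
  have w2 : (0 : ℤ) ≤ (q'.2.val : ℤ) := by positivity
  unfold pos at h
  have e1 : q.1 = q'.1 := by
    have h1 : (q.1 * N + q.2.val) / (N : ℤ) = q.1 := by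
      rw [add_comm, Int.add_mul_ediv_right _ _ hN.ne', Int.ediv_eq_zero_of_lt w1 v1, zero_add]
    have h2 : (q'.1 * N + q'.2.val) / (N : ℤ) = q'.1 := by
      rw [add_comm, Int.add_mul_ediv_right _ _ hN.ne', Int.ediv_eq_zero_of_lt w2 v2, zero_add]
    rw [← h1, ← h2, h]
  have e2 : q.2 = q'.2 := by
    rw [e1] at h
    have : (q.2.val : ℤ) = q'.2.val := by linarith
    exact ZMod.val_injective N (by exact_mod_cast this)
  exact Prod.ext e1 e2

/-- The comb with weights `G`. -/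
def comb {N : ℕ} [NeZero N] (G : ZMod N → ℝ) (y : ℝ) : ℝ :=
  ∑ q ∈ idxP N, G q.2 * psiB (y - (pos N q : ℝ))

variable {N : ℕ} [NeZero N] {G : ZMod N → ℝ}

theorem comb_nonneg (hG : ∀ a, 0 ≤ G a) (y : ℝ) : 0 ≤ comb G y :=
  Finset.sum_nonneg fun q _ => mul_nonneg (hG _) (psi_nonneg _)

theorem comb_contDiff (G : ZMod N → ℝ) : ContDiff ℝ ∞ (comb G) := by
  unfold comb
  apply ContDiff.sum
  intro q _
  apply ContDiff.mul contDiff_const
  exact psiB.contDiff.comp (contDiff_id.sub contDiff_const)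

theorem comb_range {y : ℝ} (h : comb G y ≠ 0) : -3 * (N : ℝ) - 1 / 4 < y ∧ y < N := by
  obtain ⟨q, hq, hne⟩ := Finset.exists_ne_zero_of_sum_ne_zero h
  have hp : psiB (y - (pos N q : ℝ)) ≠ 0 := fun h0 => hne (by rw [h0, mul_zero])
  have := psi_ne hp
  rw [abs_lt] at this
  rw [idxP, Finset.mem_product, Finset.mem_Icc] at hq
  have v1 : q.2.val + 1 ≤ N := ZMod.val_lt q.2
  have v1' : (q.2.val : ℝ) + 1 ≤ N := by exact_mod_cast v1
  have w1 : (0 : ℝ) ≤ (q.2.val : ℝ) := by positivity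
  have k1 : (-3 : ℝ) ≤ (q.1 : ℝ) := by exact_mod_cast hq.1.1
  have k2 : (q.1 : ℝ) ≤ 0 := by exact_mod_cast hq.1.2
  have hN : (0 : ℝ) < N := by exact_mod_cast Nat.pos_of_ne_zero (NeZero.ne N)
  have e : (pos N q : ℝ) = (q.1 : ℝ) * N + (q.2.val : ℝ) := by
    unfold pos; push_cast; ring
  rw [e] at this
  constructor
  · nlinarith [mul_le_mul_of_nonneg_right k1 hN.le]
  · nlinarith [mul_le_mul_of_nonneg_right k2 hN.le]

theorem comb_ge (hG : ∀ a, 0 ≤ G a) (z : ℤ) (h1 : -3 * (N : ℤ) ≤ z) (h2 : z < N) {y : ℝ}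
    (hy : |y - z| ≤ 1 / 8) : G (z : ZMod N) ≤ comb G y := by
  have hN : (0 : ℤ) < N := by exact_mod_cast Nat.pos_of_ne_zero (NeZero.ne N)
  set q : ℤ × ZMod N := (z / N, (z : ZMod N)) with hq
  have hval : ((z : ZMod N).val : ℤ) = z % N := ZMod.val_intCast z
  have hpos : pos N q = z := by
    unfold pos
    simp only [hq]
    rw [hval]
    exact Int.ediv_mul_add_emod z N
  have hmem : q ∈ idxP N := by
    rw [idxP, Finset.mem_product, Finset.mem_Icc]
    refine ⟨⟨?_, ?_⟩, Finset.mem_univ _⟩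
    · simp only [hq]
      exact (Int.le_ediv_iff_mul_le hN).2 h1
    · simp only [hq]
      have : z / (N : ℤ) < 1 := by
        rw [Int.ediv_lt_iff_lt_mul hN]; linarith
      linarith
  have : G q.2 * psiB (y - (pos N q : ℝ)) ≤ comb G y := by
    unfold comb
    exact Finset.single_le_sum (f := fun q => G q.2 * psiB (y - (pos N q : ℝ)))
      (fun q _ => mul_nonneg (hG _) (psi_nonneg _)) hmem
  rw [hpos, psi_one hy, mul_one] at this
  exact this

theorem comb_pow_le (hG : ∀ a, 0 ≤ G a) {p : ℝ} (hp : 0 < p) (y : ℝ) :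
    (comb G y) ^ p ≤
      ∑ q ∈ idxP N, G q.2 ^ p * (Set.Icc ((pos N q : ℝ) - 1 / 4) ((pos N q : ℝ) + 1 / 4)).indicator
        (fun _ => (1 : ℝ)) y := by
  by_cases h : ∃ q ∈ idxP N, psiB (y - (pos N q : ℝ)) ≠ 0
  · obtain ⟨q, hq, hne⟩ := h
    have hz : ∀ q' ∈ idxP N, q' ≠ q → G q'.2 * psiB (y - (pos N q' : ℝ)) = 0 := by
      intro q' _ hqq
      by_contra hcon
      have hne' : psiB (y - (pos N q' : ℝ)) ≠ 0 := fun h0 => hcon (by rw [h0, mul_zero])
      have a1 := psi_ne hne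
      have a2 := psi_ne hne'
      rw [abs_lt] at a1 a2
      have b1 : ((pos N q' : ℝ)) - (pos N q : ℝ) < 1 := by linarith
      have b2 : -1 < ((pos N q' : ℝ)) - (pos N q : ℝ) := by linarith
      have c1 : pos N q' - pos N q < 1 := by exact_mod_cast b1
      have c2 : -1 < pos N q' - pos N q := by exact_mod_cast b2
      exact hqq (pos_inj N (by omega))
    have e : comb G y = G q.2 * psiB (y - (pos N q : ℝ)) := by
      unfold comb
      exact Finset.sum_eq_single_of_mem q hq hz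
    rw [e]
    have hin : y ∈ Set.Icc ((pos N q : ℝ) - 1 / 4) ((pos N q : ℝ) + 1 / 4) := by
      have a1 := psi_ne hne
      rw [abs_lt] at a1
      exact ⟨by linarith, by linarith⟩
    have h1 : (G q.2 * psiB (y - (pos N q : ℝ))) ^ p ≤ G q.2 ^ p *
        (Set.Icc ((pos N q : ℝ) - 1 / 4) ((pos N q : ℝ) + 1 / 4)).indicator
        (fun _ => (1 : ℝ)) y := by
      rw [Set.indicator_of_mem hin, mul_one]
      apply Real.rpow_le_rpow (mul_nonneg (hG _) (psi_nonneg _)) _ hp.le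
      exact mul_le_of_le_one_right (hG _) (psi_le _)
    refine h1.trans ?_
    exact Finset.single_le_sum (f := fun q => G q.2 ^ p *
        (Set.Icc ((pos N q : ℝ) - 1 / 4) ((pos N q : ℝ) + 1 / 4)).indicator
        (fun _ => (1 : ℝ)) y)
      (fun q _ => mul_nonneg (Real.rpow_nonneg (hG _) _)
        (Set.indicator_nonneg (fun _ _ => zero_le_one) _)) hq
  · push Not at h
    have e : comb G y = 0 := by
      unfold comb
      exact Finset.sum_eq_zero fun q hq => by rw [h q hq, mul_zero]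
    rw [e, Real.zero_rpow hp.ne']
    exact Finset.sum_nonneg fun q _ => mul_nonneg (Real.rpow_nonneg (hG _) _)
        (Set.indicator_nonneg (fun _ _ => zero_le_one) _)

theorem comb_norm (hG : ∀ a, 0 ≤ G a) {p : ℝ} (hp : 0 < p) (c : ℝ) :
    eLpNorm (fun y : ℝ => ((comb G (y + c) : ℝ) : ℂ)) (ENNReal.ofReal p) volume ≤
      ENNReal.ofReal ((4 * ∑ a, G a ^ p) ^ (1 / p)) := by
  have hp0 : ENNReal.ofReal p ≠ 0 := by simpa using hp
  rw [eLpNorm_eq_lintegral_rpow_enorm_toReal hp0 ENNReal.ofReal_ne_top,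
    ENNReal.toReal_ofReal hp.le, ← ENNReal.ofReal_rpow_of_nonneg (by
      apply mul_nonneg (by norm_num)
      exact Finset.sum_nonneg fun a _ => Real.rpow_nonneg (hG a) _) (by positivity)]
  apply ENNReal.rpow_le_rpow _ (by positivity)
  have hpt : ∀ y : ℝ, ‖((comb G (y + c) : ℝ) : ℂ)‖ₑ ^ p ≤
      ∑ q ∈ idxP N, ENNReal.ofReal (G q.2 ^ p) *
        (Set.Icc ((pos N q : ℝ) - 1 / 4 - c) ((pos N q : ℝ) + 1 / 4 - c)).indicator
        (fun _ => (1 : ℝ≥0∞)) y := by
    intro y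
    have e1 : ‖((comb G (y + c) : ℝ) : ℂ)‖ₑ = ENNReal.ofReal (comb G (y + c)) := by
      rw [← ofReal_norm, Complex.norm_real, Real.norm_of_nonneg (comb_nonneg hG _)]
    rw [e1, ENNReal.ofReal_rpow_of_nonneg (comb_nonneg hG _) hp.le]
    refine (ENNReal.ofReal_le_ofReal (comb_pow_le hG hp (y + c))).trans ?_
    rw [ENNReal.ofReal_sum_of_nonneg (fun q _ => mul_nonneg (Real.rpow_nonneg (hG _) _)
        (Set.indicator_nonneg (fun _ _ => zero_le_one) _))]
    apply Finset.sum_le_sum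
    intro q _
    rw [ENNReal.ofReal_mul (Real.rpow_nonneg (hG _) _)]
    gcongr
    by_cases hy : y + c ∈ Set.Icc ((pos N q : ℝ) - 1 / 4) ((pos N q : ℝ) + 1 / 4)
    · rw [Set.indicator_of_mem hy, Set.indicator_of_mem, ENNReal.ofReal_one]
      exact ⟨by linarith [hy.1], by linarith [hy.2]⟩
    · rw [Set.indicator_of_notMem hy]
      simp
  refine (lintegral_mono hpt).trans ?_
  rw [lintegral_finsetSum (idxP N) (fun q _ => by
    apply Measurable.const_mul
    exact measurable_const.indicator measurableSet_Icc)]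
  have e2 : ∀ q ∈ idxP N, ∫⁻ y : ℝ, ENNReal.ofReal (G q.2 ^ p) *
        (Set.Icc ((pos N q : ℝ) - 1 / 4 - c) ((pos N q : ℝ) + 1 / 4 - c)).indicator
        (fun _ => (1 : ℝ≥0∞)) y ≤ ENNReal.ofReal (G q.2 ^ p) := by
    intro q _
    rw [lintegral_const_mul _ (measurable_const.indicator measurableSet_Icc),
      lintegral_indicator_const measurableSet_Icc, one_mul, Real.volume_Icc]
    have : ((pos N q : ℝ) + 1 / 4 - c) - ((pos N q : ℝ) - 1 / 4 - c) = 1 / 2 := by ring
    rw [this]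
    calc ENNReal.ofReal (G q.2 ^ p) * ENNReal.ofReal (1 / 2)
        ≤ ENNReal.ofReal (G q.2 ^ p) * 1 := by
          gcongr
          rw [← ENNReal.ofReal_one]
          exact ENNReal.ofReal_le_ofReal (by norm_num)
      _ = _ := mul_one _
  refine (Finset.sum_le_sum e2).trans ?_
  rw [← ENNReal.ofReal_sum_of_nonneg (fun q _ => Real.rpow_nonneg (hG _) _)]
  apply ENNReal.ofReal_le_ofReal
  unfold idxP
  rw [Finset.sum_product]
  simp

end

end Vale.P141
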