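import Mathlib

/-!
# P141: the trilinear Hilbert transform. Definitions.
-/

open MeasureTheory Filter Topology
open scoped ENNReal NNReal SchwartzMap

namespace Vale.P141

/-- The truncation `T_{ε,R}(f₁,f₂,f₃)(x) = ∫_{ε<|t|<R} f₁(x-t) f₂(x-2t) f₃(x-3t) dt/t`. -/
noncomputable def truncT (f₁ f₂ f₃ : ℝ → ℂ) (ε R x : ℝ) : ℂ :=
  ∫ t in {t : ℝ | ε < |t| ∧ |t| < R},
    f₁ (x - t) * f₂ (x - 2 * t) * f₃ (x - 3 * t) / (t : ℂ)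

/-- The trilinear Hilbert transform (slopes 1,2,3): the limit of `T_{ε,R}` as `ε → 0+`
and `R → ∞`. -/
noncomputable def THT (f₁ f₂ f₃ : ℝ → ℂ) (x : ℝ) : ℂ :=
  limUnder ((𝓝[>] (0 : ℝ)) ×ˢ (atTop : Filter ℝ))
    (fun q : ℝ × ℝ => truncT f₁ f₂ f₃ q.1 q.2 x)

/-- Hölder tuples `(p₁,p₂,p₃,r)`. -/
structure IsHolder (p₁ p₂ p₃ r : ℝ≥0∞) : Prop where
  one_lt₁ : 1 < p₁
  one_lt₂ : 1 < p₂
  one_lt₃ : 1 < p₃
  r_pos : 0 < r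
  r_lt : r < ⊤
  holder : r⁻¹ = p₁⁻¹ + p₂⁻¹ + p₃⁻¹

/-- `T` is bounded at `(p₁,p₂,p₃,r)`: there is a finite `C` with
`‖T(f₁,f₂,f₃)‖_r ≤ C ‖f₁‖_{p₁} ‖f₂‖_{p₂} ‖f₃‖_{p₃}` for all Schwartz functions. -/
def BoundedAt (p₁ p₂ p₃ r : ℝ≥0∞) : Prop :=
  ∃ C : ℝ≥0, ∀ f₁ f₂ f₃ : 𝓢(ℝ, ℂ),
    eLpNorm (THT f₁ f₂ f₃) r volume ≤
      C * (eLpNorm f₁ p₁ volume * eLpNorm f₂ p₂ volume * eLpNorm f₃ p₃ volume)

/-- The mass `P(c = c i)` of the level set of `c` through the atom `i`, for the probability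
weights `w` on `Fin n`. -/
noncomputable def mass {n : ℕ} (w : Fin n → ℝ) (c : Fin n → ℤ) (i : Fin n) : ℝ :=
  ∑ j : Fin n, if c j = c i then w j else 0

/-- Shannon entropy of the integer-valued random variable `c` on the finite probability
space `(Fin n, w)`: `H(c) = - ∑_i w_i log P(c = c_i)`. -/
noncomputable def ent {n : ℕ} (w : Fin n → ℝ) (c : Fin n → ℤ) : ℝ :=
  - ∑ i : Fin n, w i * Real.log (mass w c i)

end Vale.P141
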