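import Vale.Agent.P141.Mods

/-!
# P141: module ENT
-/

open Real Finset

namespace Vale.P141

/-- Law of `c`. -/
noncomputable def law {n : ℕ} (w : Fin n → ℝ) (c : Fin n → ℤ) (y : ℤ) : ℝ :=
  ∑ j ∈ univ.filter (fun j => c j = y), w j

theorem mass_eq {n : ℕ} (w : Fin n → ℝ) (c : Fin n → ℤ) (i : Fin n) :
    mass w c i = law w c (c i) := by
  unfold mass law
  rw [Finset.sum_filter]

theorem law_nonneg {n : ℕ} {w : Fin n → ℝ} (hw : ∀ i, 0 < w i) (c : Fin n → ℤ) (y : ℤ) :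
    0 ≤ law w c y := Finset.sum_nonneg fun j _ => (hw j).le

theorem law_pos {n : ℕ} {w : Fin n → ℝ} (hw : ∀ i, 0 < w i) (c : Fin n → ℤ) (i : Fin n) :
    0 < law w c (c i) := by
  unfold law
  apply Finset.sum_pos (fun j _ => hw j)
  exact ⟨i, by simp⟩

theorem law_zero {n : ℕ} {w : Fin n → ℝ} (c : Fin n → ℤ) {y : ℤ} (h : ∀ i, c i ≠ y) :
    law w c y = 0 := by
  unfold law
  rw [Finset.filter_false_of_mem (fun i _ => h i), Finset.sum_empty]

theorem law_sum {n : ℕ} {w : Fin n → ℝ} (hw1 : ∑ i, w i = 1) (c : Fin n → ℤ) (A : Finset ℤ)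
    (hA : ∀ i, c i ∈ A) : ∑ y ∈ A, law w c y = 1 := by
  unfold law
  rw [← hw1]
  exact Finset.sum_fiberwise_of_maps_to (fun i _ => hA i) _

/-- Gibbs' inequality, twice. -/
theorem gibbs_A {n : ℕ} {w u : Fin n → ℝ} {x : Fin n → ℤ} (hw : ∀ i, 0 < w i)
    (hw1 : ∑ i, w i = 1) (hu0 : ∀ i, 0 < u i) (h : ℤ → ℝ)
    (hh : ∀ ξ, h ξ = ∑ i ∈ univ.filter (fun i => x i = ξ), u i) :
    ∑ i, w i * Real.log (u i * law w x (x i) / (w i * h (x i))) ≤ 0 := by
  have hh0 : ∀ i, 0 < h (x i) := fun i => by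
    rw [hh]; exact Finset.sum_pos (fun j _ => hu0 j) ⟨i, by simp⟩
  have mx0 : ∀ i, 0 < law w x (x i) := fun i => law_pos hw x i
  have h1 : ∀ i ∈ (univ : Finset (Fin n)),
      w i * Real.log (u i * law w x (x i) / (w i * h (x i))) ≤
      u i * law w x (x i) / h (x i) - w i := by
    intro i _
    have hp := Real.log_le_sub_one_of_pos
      (show 0 < u i * law w x (x i) / (w i * h (x i)) from
        div_pos (mul_pos (hu0 i) (mx0 i)) (mul_pos (hw i) (hh0 i)))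
    have := mul_le_mul_of_nonneg_left hp (hw i).le
    refine this.trans (le_of_eq ?_)
    have h1 := (hw i).ne'
    have h2 := (hh0 i).ne'
    field_simp
  refine (Finset.sum_le_sum h1).trans ?_
  rw [Finset.sum_sub_distrib, hw1]
  have fib : ∑ i, u i * law w x (x i) / h (x i) = ∑ ξ ∈ univ.image x,
      ∑ i ∈ univ.filter (fun i => x i = ξ), u i * law w x (x i) / h (x i) :=
    (Finset.sum_fiberwise_of_maps_to (fun i _ => Finset.mem_image_of_mem x (mem_univ i)) _).symm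
  rw [fib]
  have h2 : ∀ ξ ∈ univ.image x, ∑ i ∈ univ.filter (fun i => x i = ξ),
      u i * law w x (x i) / h (x i) = law w x ξ := by
    intro ξ hξ
    obtain ⟨i₀, _, hi₀⟩ := Finset.mem_image.1 hξ
    have hne : h ξ ≠ 0 := by rw [← hi₀]; exact (hh0 i₀).ne'
    have : ∀ i ∈ univ.filter (fun i => x i = ξ), u i * law w x (x i) / h (x i) =
        u i * (law w x ξ / h ξ) := by
      intro i hi
      rw [(Finset.mem_filter.1 hi).2]; ring
    rw [Finset.sum_congr rfl this, ← Finset.sum_mul, ← hh]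
    field_simp
  rw [Finset.sum_congr rfl h2, law_sum hw1 x (univ.image x)
    (fun i => Finset.mem_image_of_mem x (mem_univ i))]
  norm_num

theorem gibbs_B {n : ℕ} {w u : Fin n → ℝ} {x : Fin n → ℤ} (hw : ∀ i, 0 < w i)
    (hw1 : ∑ i, w i = 1) (hu0 : ∀ i, 0 < u i) (h : ℤ → ℝ)
    (hh : ∀ ξ, h ξ = ∑ i ∈ univ.filter (fun i => x i = ξ), u i) {ρ : ℝ}
    (hsum1 : ∑ ξ ∈ univ.image x, h ξ ^ ρ ≤ 1) :
    ∑ i, w i * Real.log (h (x i) ^ ρ / law w x (x i)) ≤ 0 := by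
  have hh0 : ∀ i, 0 < h (x i) := fun i => by
    rw [hh]; exact Finset.sum_pos (fun j _ => hu0 j) ⟨i, by simp⟩
  have mx0 : ∀ i, 0 < law w x (x i) := fun i => law_pos hw x i
  have h1 : ∀ i ∈ (univ : Finset (Fin n)),
      w i * Real.log (h (x i) ^ ρ / law w x (x i)) ≤
      w i * (h (x i) ^ ρ / law w x (x i)) - w i := by
    intro i _
    have hp := Real.log_le_sub_one_of_pos (show 0 < h (x i) ^ ρ / law w x (x i) from
      div_pos (Real.rpow_pos_of_pos (hh0 i) _) (mx0 i))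
    have := mul_le_mul_of_nonneg_left hp (hw i).le
    refine this.trans (le_of_eq ?_)
    ring
  refine (Finset.sum_le_sum h1).trans ?_
  rw [Finset.sum_sub_distrib, hw1]
  have fib : ∑ i, w i * (h (x i) ^ ρ / law w x (x i)) = ∑ ξ ∈ univ.image x,
      ∑ i ∈ univ.filter (fun i => x i = ξ), w i * (h (x i) ^ ρ / law w x (x i)) :=
    (Finset.sum_fiberwise_of_maps_to (fun i _ => Finset.mem_image_of_mem x (mem_univ i)) _).symm
  rw [fib]
  have h2 : ∀ ξ ∈ univ.image x, ∑ i ∈ univ.filter (fun i => x i = ξ),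
      w i * (h (x i) ^ ρ / law w x (x i)) = h ξ ^ ρ := by
    intro ξ hξ
    obtain ⟨i₀, _, hi₀⟩ := Finset.mem_image.1 hξ
    have hne : law w x ξ ≠ 0 := by rw [← hi₀]; exact (mx0 i₀).ne'
    have : ∀ i ∈ univ.filter (fun i => x i = ξ), w i * (h (x i) ^ ρ / law w x (x i)) =
        w i * (h ξ ^ ρ / law w x ξ) := by
      intro i hi
      rw [(Finset.mem_filter.1 hi).2]
    rw [Finset.sum_congr rfl this, ← Finset.sum_mul]
    have e : ∑ i ∈ univ.filter (fun i => x i = ξ), w i = law w x ξ := rfl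
    rw [e, mul_div_cancel₀ _ hne]
  rw [Finset.sum_congr rfl h2]
  linarith

theorem gibbs {n : ℕ} {w u : Fin n → ℝ} {x : Fin n → ℤ} (hw : ∀ i, 0 < w i)
    (hw1 : ∑ i, w i = 1) (hu0 : ∀ i, 0 < u i) (h : ℤ → ℝ)
    (hh : ∀ ξ, h ξ = ∑ i ∈ univ.filter (fun i => x i = ξ), u i) {ρ : ℝ} (hρ0 : 0 < ρ)
    (hsum1 : ∑ ξ ∈ univ.image x, h ξ ^ ρ ≤ 1) :
    ∑ i, w i * (ρ * (Real.log (u i) + Real.log (law w x (x i)) - Real.log (w i)) -
      Real.log (law w x (x i))) ≤ 0 := by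
  have hA1 := gibbs_A hw hw1 hu0 h hh
  have hB1 := gibbs_B hw hw1 hu0 h hh hsum1
  have hh0 : ∀ i, 0 < h (x i) := fun i => by
    rw [hh]; exact Finset.sum_pos (fun j _ => hu0 j) ⟨i, by simp⟩
  have mx0 : ∀ i, 0 < law w x (x i) := fun i => law_pos hw x i
  have e : ∑ i, w i * (ρ * (Real.log (u i) + Real.log (law w x (x i)) - Real.log (w i)) -
      Real.log (law w x (x i))) =
      ρ * ∑ i, w i * Real.log (u i * law w x (x i) / (w i * h (x i))) +
      ∑ i, w i * Real.log (h (x i) ^ ρ / law w x (x i)) := by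
    rw [Finset.mul_sum, ← Finset.sum_add_distrib]
    apply Finset.sum_congr rfl
    intro i _
    have a1 := (hu0 i).ne'
    have a2 := (mx0 i).ne'
    have a3 := (hw i).ne'
    have a4 := (hh0 i).ne'
    rw [Real.log_div (mul_ne_zero a1 a2) (mul_ne_zero a3 a4), Real.log_mul a1 a2,
      Real.log_mul a3 a4, Real.log_div (Real.rpow_pos_of_pos (hh0 i) _).ne' a2,
      Real.log_rpow (hh0 i)]
    ring
  rw [e]
  have := mul_nonpos_of_nonneg_of_nonpos hρ0.le hA1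
  linarith

theorem law_rpow_sum {n : ℕ} {w : Fin n → ℝ} (hw : ∀ i, 0 < w i) (hw1 : ∑ i, w i = 1)
    (c : Fin n → ℤ) (A : Finset ℤ) (hc : ∀ i, c i ∈ A) {p : ℝ} (hp : 1 < p) :
    (∑ z ∈ A, (law w c z ^ (1 / p)) ^ p) ^ (1 / p) = 1 := by
  have : ∀ z ∈ A, (law w c z ^ (1 / p)) ^ p = law w c z := by
    intro z _
    rw [← Real.rpow_mul (law_nonneg hw c z), one_div_mul_cancel (by linarith), Real.rpow_one]
  rw [Finset.sum_congr rfl this, law_sum hw1 c A hc, Real.one_rpow]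

/-- The atoms and the sharp inequality. -/
theorem sharp_atoms {p₁ p₂ p₃ r : ℝ} (hp1 : 1 < p₁) (hp2 : 1 < p₂) (hp3 : 1 < p₃)
    (hr : 0 < r) (hr1 : r < 1) (hS : Sharp p₁ p₂ p₃ r) {n : ℕ} {w : Fin n → ℝ}
    {x t : Fin n → ℤ} (hw : ∀ i, 0 < w i) (hw1 : ∑ i, w i = 1)
    (hinj : Function.Injective (fun i => (x i, t i))) (y₁ y₂ y₃ : Fin n → ℤ)
    (hy1 : ∀ i, y₁ i = x i - t i) (hy2 : ∀ i, y₂ i = x i - 2 * t i)
    (hy3 : ∀ i, y₃ i = x i - 3 * t i) :
    ∑ ξ ∈ univ.image x, (∑ i ∈ univ.filter (fun i => x i = ξ),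
      law w y₁ (y₁ i) ^ (1 / p₁) * law w y₂ (y₂ i) ^ (1 / p₂) *
        law w y₃ (y₃ i) ^ (1 / p₃)) ^ (1 / (1 / r - 1)) ≤ 1 := by
  have hs0 : 0 < 1 / r - 1 := by
    have : 1 < 1 / r := by rw [lt_div_iff₀ hr]; linarith
    linarith
  have nn : ∀ (c : Fin n → ℤ) (p : ℝ) (y : ℤ), 0 ≤ law w c y ^ (1 / p) :=
    fun c p y => Real.rpow_nonneg (law_nonneg hw c y) _
  have key := hS (univ.image x) (univ.image t)
    (univ.image y₁ ∪ univ.image y₂ ∪ univ.image y₃)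
    (fun y => law w y₁ y ^ (1 / p₁)) (fun y => law w y₂ y ^ (1 / p₂))
    (fun y => law w y₃ y ^ (1 / p₃)) (nn _ _) (nn _ _) (nn _ _)
    (fun z hz => by
      rw [law_zero y₁, Real.zero_rpow (by positivity)]
      intro i h0
      exact hz (by rw [← h0]; simp))
    (fun z hz => by
      rw [law_zero y₂, Real.zero_rpow (by positivity)]
      intro i h0
      exact hz (by rw [← h0]; simp))
    (fun z hz => by
      rw [law_zero y₃, Real.zero_rpow (by positivity)]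
      intro i h0
      exact hz (by rw [← h0]; simp))
  rw [law_rpow_sum hw hw1 y₁ _ (fun i => by simp) hp1,
    law_rpow_sum hw hw1 y₂ _ (fun i => by simp) hp2,
    law_rpow_sum hw hw1 y₃ _ (fun i => by simp) hp3, one_mul, one_mul] at key
  have hle : ∀ ξ, ∑ i ∈ univ.filter (fun i => x i = ξ),
      law w y₁ (y₁ i) ^ (1 / p₁) * law w y₂ (y₂ i) ^ (1 / p₂) *
        law w y₃ (y₃ i) ^ (1 / p₃) ≤
      ∑ τ ∈ univ.image t, law w y₁ (ξ - τ) ^ (1 / p₁) * law w y₂ (ξ - 2 * τ) ^ (1 / p₂) *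
      law w y₃ (ξ - 3 * τ) ^ (1 / p₃) := by
    intro ξ
    have e : ∑ i ∈ univ.filter (fun i => x i = ξ),
        law w y₁ (y₁ i) ^ (1 / p₁) * law w y₂ (y₂ i) ^ (1 / p₂) *
        law w y₃ (y₃ i) ^ (1 / p₃) = ∑ τ ∈ (univ.filter (fun i => x i = ξ)).image t,
        law w y₁ (ξ - τ) ^ (1 / p₁) * law w y₂ (ξ - 2 * τ) ^ (1 / p₂) *
        law w y₃ (ξ - 3 * τ) ^ (1 / p₃) := by
      rw [Finset.sum_image]
      · apply Finset.sum_congr rfl
        intro i hi
        have hxi : x i = ξ := (Finset.mem_filter.1 hi).2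
        rw [hy1, hy2, hy3, hxi]
      · intro i hi j hj hij
        have h1 : x i = ξ := (Finset.mem_filter.1 hi).2
        have h2 : x j = ξ := (Finset.mem_filter.1 hj).2
        apply hinj
        simp only [h1, h2, hij]
    rw [e]
    apply Finset.sum_le_sum_of_subset_of_nonneg
    · intro τ hτ
      obtain ⟨i, _, rfl⟩ := Finset.mem_image.1 hτ
      exact Finset.mem_image_of_mem _ (mem_univ i)
    · intro τ _ _
      exact mul_nonneg (mul_nonneg (nn _ _ _) (nn _ _ _)) (nn _ _ _)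
  refine le_trans (Finset.sum_le_sum (fun ξ _ => Real.rpow_le_rpow
    (Finset.sum_nonneg fun i _ => mul_nonneg (mul_nonneg (nn _ _ _) (nn _ _ _)) (nn _ _ _))
    (hle ξ) (by positivity))) ?_
  by_contra hcon
  push Not at hcon
  exact absurd (lt_of_lt_of_le (Real.one_lt_rpow hcon hs0) key) (lt_irrefl _)

theorem ent_main : ENTStmt := by
  intro p₁ p₂ p₃ r hp1 hp2 hp3 hr hr1 _ hS n w x t hw hw1 hinj
  have hs0 : 0 < 1 / r - 1 := by
    have : 1 < 1 / r := by rw [lt_div_iff₀ hr]; linarith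
    linarith
  have hsum1 := sharp_atoms hp1 hp2 hp3 hr hr1 hS hw hw1 hinj (fun i => x i - t i)
    (fun i => x i - 2 * t i) (fun i => x i - 3 * t i) (fun _ => rfl) (fun _ => rfl)
    (fun _ => rfl)
  unfold ent
  simp_rw [mass_eq]
  generalize hY1 : (fun i => x i - t i) = y₁ at hsum1 ⊢
  generalize hY2 : (fun i => x i - 2 * t i) = y₂ at hsum1 ⊢
  generalize hY3 : (fun i => x i - 3 * t i) = y₃ at hsum1 ⊢
  have e1 : ∀ i, x i - t i = y₁ i := fun i => by rw [← hY1]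
  have e2 : ∀ i, x i - 2 * t i = y₂ i := fun i => by rw [← hY2]
  have e3 : ∀ i, x i - 3 * t i = y₃ i := fun i => by rw [← hY3]
  simp only [e1, e2, e3] at hsum1 ⊢
  have b1 := fun i => law_pos hw y₁ i
  have b2 := fun i => law_pos hw y₂ i
  have b3 := fun i => law_pos hw y₃ i
  have hu0 : ∀ i, 0 < law w y₁ (y₁ i) ^ (1 / p₁) * law w y₂ (y₂ i) ^ (1 / p₂) *
        law w y₃ (y₃ i) ^ (1 / p₃) := fun i =>
    mul_pos (mul_pos (Real.rpow_pos_of_pos (b1 i) _) (Real.rpow_pos_of_pos (b2 i) _))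
      (Real.rpow_pos_of_pos (b3 i) _)
  have hcomb := gibbs hw hw1 hu0 _ (fun _ => rfl) (show 0 < 1 / (1 / r - 1) by positivity)
    hsum1
  have hlu : ∀ i, Real.log (law w y₁ (y₁ i) ^ (1 / p₁) * law w y₂ (y₂ i) ^ (1 / p₂) *
        law w y₃ (y₃ i) ^ (1 / p₃)) = 1 / p₁ * Real.log (law w y₁ (y₁ i)) +
      1 / p₂ * Real.log (law w y₂ (y₂ i)) + 1 / p₃ * Real.log (law w y₃ (y₃ i)) := by
    intro i
    rw [Real.log_mul (mul_pos (Real.rpow_pos_of_pos (b1 i) _)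
      (Real.rpow_pos_of_pos (b2 i) _)).ne' (Real.rpow_pos_of_pos (b3 i) _).ne',
      Real.log_mul (Real.rpow_pos_of_pos (b1 i) _).ne' (Real.rpow_pos_of_pos (b2 i) _).ne',
      Real.log_rpow (b1 i), Real.log_rpow (b2 i), Real.log_rpow (b3 i)]
  simp_rw [hlu] at hcomb
  generalize hs : 1 / r - 1 = s at hs0 hcomb
  have hfin := mul_nonpos_of_nonneg_of_nonpos hs0.le hcomb
  have hsρ : s * (1 / s) = 1 := by field_simp
  rw [Finset.mul_sum] at hfin
  have hterm : ∀ i ∈ (univ : Finset (Fin n)),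
      s * (w i * (1 / s * (1 / p₁ * Real.log (law w y₁ (y₁ i)) +
      1 / p₂ * Real.log (law w y₂ (y₂ i)) + 1 / p₃ * Real.log (law w y₃ (y₃ i)) +
      Real.log (law w x (x i)) - Real.log (w i)) - Real.log (law w x (x i)))) =
      1 / p₁ * (w i * Real.log (law w y₁ (y₁ i))) +
      1 / p₂ * (w i * Real.log (law w y₂ (y₂ i))) +
      1 / p₃ * (w i * Real.log (law w y₃ (y₃ i))) +
      (1 - s) * (w i * Real.log (law w x (x i))) - w i * Real.log (w i) := by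
    intro i _
    have : s * (w i * (1 / s * (1 / p₁ * Real.log (law w y₁ (y₁ i)) +
      1 / p₂ * Real.log (law w y₂ (y₂ i)) + 1 / p₃ * Real.log (law w y₃ (y₃ i)) +
      Real.log (law w x (x i)) - Real.log (w i)) - Real.log (law w x (x i)))) =
      w i * ((s * (1 / s)) * (1 / p₁ * Real.log (law w y₁ (y₁ i)) +
      1 / p₂ * Real.log (law w y₂ (y₂ i)) + 1 / p₃ * Real.log (law w y₃ (y₃ i)) +
      Real.log (law w x (x i)) - Real.log (w i)) - s * Real.log (law w x (x i))) := by ring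
    rw [this, hsρ]
    ring
  rw [Finset.sum_congr rfl hterm, Finset.sum_sub_distrib, Finset.sum_add_distrib,
    Finset.sum_add_distrib, Finset.sum_add_distrib, ← Finset.mul_sum, ← Finset.mul_sum,
    ← Finset.mul_sum, ← Finset.mul_sum] at hfin
  have e4 : (1 / r - 2 : ℝ) = s - 1 := by rw [← hs]; ring
  rw [e4]
  linarith

end Vale.P141
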