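import Vale.Agent.P141.Mods

/-!
# P141: modules FACE2 and FACE3
-/

open Real Finset

namespace Vale.P141

theorem sum_ind_rpow (A S : Finset ℤ) (hS : S ⊆ A) {p : ℝ} (hp : 0 < p) :
    ∑ z ∈ A, (if z ∈ S then (1 : ℝ) else 0) ^ p = S.card := by
  have : ∀ z ∈ A, (if z ∈ S then (1 : ℝ) else 0) ^ p = if z ∈ S then 1 else 0 := by
    intro z _
    by_cases h : z ∈ S
    · rw [if_pos h, Real.one_rpow]
    · rw [if_neg h, Real.zero_rpow hp.ne']
  rw [Finset.sum_congr rfl this, Finset.sum_ite_mem, Finset.inter_eq_right.2 hS]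
  simp

/-- General consequence of the sharp inequality for indicator functions. -/
theorem sharp_sets {p₁ p₂ p₃ r : ℝ} (hp1 : 1 < p₁) (hp2 : 1 < p₂) (hp3 : 1 < p₃) (hr : 0 < r)
    (hr1 : r < 1) (hS : Sharp p₁ p₂ p₃ r) (S₁ S₂ S₃ X W : Finset ℤ)
    (h : ∀ x ∈ X, ∃ t ∈ W, x - t ∈ S₁ ∧ x - 2 * t ∈ S₂ ∧ x - 3 * t ∈ S₃) :
    (X.card : ℝ) ^ (1 / r - 1) ≤ (S₁.card : ℝ) ^ (1 / p₁) * (S₂.card : ℝ) ^ (1 / p₂) *
      (S₃.card : ℝ) ^ (1 / p₃) := by
  have hs0 : 0 < 1 / r - 1 := by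
    have : 1 < 1 / r := by rw [lt_div_iff₀ hr]; linarith
    linarith
  have key := hS X W (S₁ ∪ S₂ ∪ S₃) (fun z => if z ∈ S₁ then 1 else 0)
    (fun z => if z ∈ S₂ then 1 else 0) (fun z => if z ∈ S₃ then 1 else 0)
    (fun z => by split_ifs <;> norm_num) (fun z => by split_ifs <;> norm_num)
    (fun z => by split_ifs <;> norm_num)
    (fun z hz => by
      rw [if_neg]; intro h1; exact hz (by simp [h1]))
    (fun z hz => by
      rw [if_neg]; intro h1; exact hz (by simp [h1]))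
    (fun z hz => by
      rw [if_neg]; intro h1; exact hz (by simp [h1]))
  rw [sum_ind_rpow _ _ (fun z hz => by simp [hz]) (by linarith),
    sum_ind_rpow _ _ (fun z hz => by simp [hz]) (by linarith),
    sum_ind_rpow _ _ (fun z hz => by simp [hz]) (by linarith)] at key
  refine le_trans ?_ key
  apply Real.rpow_le_rpow (by positivity) _ hs0.le
  have : ∀ x ∈ X, (1 : ℝ) ≤ (∑ t ∈ W, (if x - t ∈ S₁ then (1 : ℝ) else 0) *
      (if x - 2 * t ∈ S₂ then (1 : ℝ) else 0) * (if x - 3 * t ∈ S₃ then (1 : ℝ) else 0)) ^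
      (1 / (1 / r - 1)) := by
    intro x hx
    obtain ⟨t, ht, h1, h2, h3⟩ := h x hx
    apply Real.one_le_rpow _ (by positivity)
    have hsingle := Finset.single_le_sum (f := fun t => (if x - t ∈ S₁ then (1 : ℝ) else 0) *
      (if x - 2 * t ∈ S₂ then (1 : ℝ) else 0) * (if x - 3 * t ∈ S₃ then (1 : ℝ) else 0))
      (s := W) (fun i _ => by split_ifs <;> norm_num) ht
    refine le_trans ?_ hsingle
    simp only [if_pos h1, if_pos h2, if_pos h3]
    norm_num
  have h2 := Finset.sum_le_sum this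
  rw [Finset.sum_const, nsmul_eq_mul, mul_one] at h2
  exact h2

theorem face2_main : FACE2Stmt := by
  intro p₁ p₂ p₃ r hp1 hp2 hp3 hr hr1 hS m hm
  have key := sharp_sets hp1 hp2 hp3 hr hr1 hS (Finset.Ico 0 (m : ℤ)) (Finset.Ico 0 2)
    (Finset.Ico (-(m : ℤ) + 1) 3) (Finset.Ico (-1) (2 * (m : ℤ) - 1))
    (Finset.Ico (-1) (m : ℤ)) (by
      intro x hx
      rw [Finset.mem_Ico] at hx
      -- x = 2u - v
      by_cases hpar : x % 2 = 0
      · refine ⟨x / 2, ?_, ?_, ?_, ?_⟩ <;> rw [Finset.mem_Ico] <;> omega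
      · refine ⟨(x + 1) / 2 - 1, ?_, ?_, ?_, ?_⟩ <;> rw [Finset.mem_Ico] <;> omega)
  rw [Int.card_Ico, Int.card_Ico, Int.card_Ico, Int.card_Ico] at key
  have e1 : ((2 * (m : ℤ) - 1 - -1).toNat : ℝ) = 2 * m := by
    have : (2 * (m : ℤ) - 1 - -1).toNat = 2 * m := by omega
    rw [this]; push_cast; ring
  have e2 : (((m : ℤ) - 0).toNat : ℝ) = m := by
    have : ((m : ℤ) - 0).toNat = m := by omega
    rw [this]
  have e3 : (((2 : ℤ) - 0).toNat : ℝ) = 2 := by
    have : ((2 : ℤ) - 0).toNat = 2 := by decide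
    rw [this]; norm_num
  have e4 : (((3 : ℤ) - (-(m : ℤ) + 1)).toNat : ℝ) = m + 2 := by
    have : ((3 : ℤ) - (-(m : ℤ) + 1)).toNat = m + 2 := by omega
    rw [this]; push_cast; ring
  rw [e1, e2, e3, e4] at key
  exact key

theorem face3_main : FACE3Stmt := by
  intro p₁ p₂ p₃ r hp1 hp2 hp3 hr hr1 hS m hm
  have key := sharp_sets hp1 hp2 hp3 hr hr1 hS
    ((Finset.Ico 0 (m : ℤ)).image (fun u => 2 * u)) (Finset.Ico 0 ((m : ℤ) + 2))
    ((Finset.Ico (0 : ℤ) 3).image (fun u => 2 * u)) (Finset.Ico (-2) (3 * (m : ℤ) - 2))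
    (Finset.Ico (-2) (m : ℤ)) (by
      intro x hx
      rw [Finset.mem_Ico] at hx
      -- x = 3u - v, u = ceil(x/3), v = 3u - x
      refine ⟨(x + 2) / 3 - (3 * ((x + 2) / 3) - x), ?_, ?_, ?_, ?_⟩
      · rw [Finset.mem_Ico]; omega
      · rw [Finset.mem_image]
        refine ⟨(x + 2) / 3, ?_, ?_⟩
        · rw [Finset.mem_Ico]; omega
        · omega
      · rw [Finset.mem_Ico]; omega
      · rw [Finset.mem_image]
        refine ⟨3 * ((x + 2) / 3) - x, ?_, ?_⟩
        · rw [Finset.mem_Ico]; omega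
        · omega)
  have hinj : Function.Injective (fun u : ℤ => 2 * u) := fun a b h => by
    have h' : 2 * a = 2 * b := h
    omega
  rw [Finset.card_image_of_injective _ hinj, Finset.card_image_of_injective _ hinj,
    Int.card_Ico, Int.card_Ico, Int.card_Ico, Int.card_Ico] at key
  have e1 : ((3 * (m : ℤ) - 2 - -2).toNat : ℝ) = 3 * m := by
    have : (3 * (m : ℤ) - 2 - -2).toNat = 3 * m := by omega
    rw [this]; push_cast; ring
  have e2 : (((m : ℤ) - 0).toNat : ℝ) = m := by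
    have : ((m : ℤ) - 0).toNat = m := by omega
    rw [this]
  have e3 : (((3 : ℤ) - 0).toNat : ℝ) = 3 := by
    have : ((3 : ℤ) - 0).toNat = 3 := by decide
    rw [this]; norm_num
  have e4 : (((m : ℤ) + 2 - 0).toNat : ℝ) = m + 2 := by
    have : ((m : ℤ) + 2 - 0).toNat = m + 2 := by omega
    rw [this]; push_cast; ring
  rw [e1, e2, e3, e4] at key
  exact key

end Vale.P141
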