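import Vale.Agent.P141.Mods

/-!
# P141: assembly of the final theorem from the module statements
-/

open MeasureTheory Filter Topology
open scoped ENNReal NNReal SchwartzMap

namespace Vale.P141

/-- Real form of a Hölder tuple with `r < 1/2 + something`: all exponents finite. -/
theorem holder_real {p₁ p₂ p₃ r : ℝ≥0∞} (h : IsHolder p₁ p₂ p₃ r)
    (h1 : p₁ ≠ ⊤) (h2 : p₂ ≠ ⊤) (h3 : p₃ ≠ ⊤) :
    1 < p₁.toReal ∧ 1 < p₂.toReal ∧ 1 < p₃.toReal ∧ 0 < r.toReal ∧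
      1 / r.toReal = 1 / p₁.toReal + 1 / p₂.toReal + 1 / p₃.toReal ∧
      p₁ = ENNReal.ofReal p₁.toReal ∧ p₂ = ENNReal.ofReal p₂.toReal ∧
      p₃ = ENNReal.ofReal p₃.toReal ∧ r = ENNReal.ofReal r.toReal := by
  have hr : r ≠ ⊤ := h.r_lt.ne
  have g : ∀ p : ℝ≥0∞, 1 < p → p ≠ ⊤ → 1 < p.toReal := by
    intro p hp hp'
    have := (ENNReal.toReal_lt_toReal ENNReal.one_ne_top hp').2 hp
    simpa using this
  refine ⟨g _ h.one_lt₁ h1, g _ h.one_lt₂ h2, g _ h.one_lt₃ h3,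
    ENNReal.toReal_pos h.r_pos.ne' hr, ?_, (ENNReal.ofReal_toReal h1).symm,
    (ENNReal.ofReal_toReal h2).symm, (ENNReal.ofReal_toReal h3).symm,
    (ENNReal.ofReal_toReal hr).symm⟩
  have e := congrArg ENNReal.toReal h.holder
  have n1 : p₁⁻¹ ≠ ⊤ := ENNReal.inv_ne_top.2 (lt_trans one_pos h.one_lt₁).ne'
  have n2 : p₂⁻¹ ≠ ⊤ := ENNReal.inv_ne_top.2 (lt_trans one_pos h.one_lt₂).ne'
  have n3 : p₃⁻¹ ≠ ⊤ := ENNReal.inv_ne_top.2 (lt_trans one_pos h.one_lt₃).ne'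
  rw [ENNReal.toReal_add (ENNReal.add_ne_top.2 ⟨n1, n2⟩) n3, ENNReal.toReal_add n1 n2,
    ENNReal.toReal_inv, ENNReal.toReal_inv, ENNReal.toReal_inv, ENNReal.toReal_inv] at e
  simpa [one_div] using e

/-- Boundedness implies the sharp discrete inequality. -/
theorem sharp_of_bounded (hANA : ANAStmt) (hHOM : HOMStmt) (hPUSH : PUSHStmt)
    (hRGH : RGHStmt) (hTEN : TENStmt) {p₁ p₂ p₃ r : ℝ≥0∞} (h : IsHolder p₁ p₂ p₃ r)
    (h1 : p₁ ≠ ⊤) (h2 : p₂ ≠ ⊤) (h3 : p₃ ≠ ⊤) (hr : r.toReal < 1)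
    (hb : BoundedAt p₁ p₂ p₃ r) : Sharp p₁.toReal p₂.toReal p₃.toReal r.toReal := by
  obtain ⟨a1, a2, a3, a4, a5, e1, e2, e3, e4⟩ := holder_real h h1 h2 h3
  have hs : 1 ≤ 1 / p₁.toReal + 1 / p₂.toReal + 1 / p₃.toReal := by
    rw [← a5, le_div_iff₀ a4]; linarith
  have hb' : BoundedAt (ENNReal.ofReal p₁.toReal) (ENNReal.ofReal p₂.toReal)
      (ENNReal.ofReal p₃.toReal) (ENNReal.ofReal r.toReal) := by
    rw [← e1, ← e2, ← e3, ← e4]; exact hb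
  exact hTEN _ _ _ _ a1 a2 a3 a4 hr (hRGH hANA hHOM hPUSH _ _ _ _ a1 a2 a3 a4 hs hb')

theorem crit (hANA : ANAStmt) (hHOM : HOMStmt) (hPUSH : PUSHStmt)
    (hRGH : RGHStmt) (hTEN : TENStmt) (hENT : ENTStmt) {p₁ p₂ p₃ r : ℝ≥0∞}
    (h : IsHolder p₁ p₂ p₃ r)
    (h1 : p₁ ≠ ⊤) (h2 : p₂ ≠ ⊤) (h3 : p₃ ≠ ⊤) (hr : r.toReal < 1)
    (n : ℕ) (w : Fin n → ℝ) (x t : Fin n → ℤ) (hw : ∀ i, 0 < w i) (hw1 : ∑ i, w i = 1)
    (hinj : Function.Injective (fun i => (x i, t i)))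
    (hlt : p₁.toReal⁻¹ * ent w (fun i => x i - t i)
        + p₂.toReal⁻¹ * ent w (fun i => x i - 2 * t i)
        + p₃.toReal⁻¹ * ent w (fun i => x i - 3 * t i)
      < (r.toReal⁻¹ - 2) * ent w x + (- ∑ i, w i * Real.log (w i))) :
    ¬ BoundedAt p₁ p₂ p₃ r := by
  intro hb
  obtain ⟨a1, a2, a3, a4, a5, -⟩ := holder_real h h1 h2 h3
  have := hENT _ _ _ _ a1 a2 a3 a4 hr a5
    (sharp_of_bounded hANA hHOM hPUSH hRGH hTEN h h1 h2 h3 hr hb) n w x t hw hw1 hinj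
  simp only [one_div] at this
  linarith

/-- Finite exponents as soon as `r < 1/2`. -/
theorem ne_top_of_lt {p₁ p₂ p₃ r : ℝ≥0∞} (h : IsHolder p₁ p₂ p₃ r) (hr : r < 2⁻¹) :
    p₁ ≠ ⊤ ∧ p₂ ≠ ⊤ ∧ p₃ ≠ ⊤ := by
  have h2 : (2 : ℝ≥0∞) < p₁⁻¹ + p₂⁻¹ + p₃⁻¹ := by
    rw [← h.holder]
    exact ENNReal.lt_inv_iff_lt_inv.1 hr
  have b : ∀ p : ℝ≥0∞, 1 < p → p⁻¹ ≤ 1 := fun p hp => ENNReal.inv_le_one.2 hp.le
  have b1 := b _ h.one_lt₁
  have b2 := b _ h.one_lt₂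
  have b3 := b _ h.one_lt₃
  have o : (2 : ℝ≥0∞) = 1 + 1 := by norm_num
  refine ⟨?_, ?_, ?_⟩
  · rintro rfl
    rw [ENNReal.inv_top, zero_add] at h2
    exact absurd (h2.trans_le ((add_le_add b2 b3).trans o.symm.le)) (lt_irrefl _)
  · rintro rfl
    rw [ENNReal.inv_top, add_zero] at h2
    exact absurd (h2.trans_le ((add_le_add b1 b3).trans o.symm.le)) (lt_irrefl _)
  · rintro rfl
    rw [ENNReal.inv_top, add_zero] at h2
    exact absurd (h2.trans_le ((add_le_add b1 b2).trans o.symm.le)) (lt_irrefl _)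

theorem small_r (hANA : ANAStmt) (hHOM : HOMStmt) (hPUSH : PUSHStmt)
    (hRGH : RGHStmt) (hTEN : TENStmt) (hENT : ENTStmt) (hNUM : NUMStmt)
    {p₁ p₂ p₃ r : ℝ≥0∞} (h : IsHolder p₁ p₂ p₃ r) (hr : r ≤ 7 / 15) :
    ¬ BoundedAt p₁ p₂ p₃ r := by
  have hr2 : r < 2⁻¹ := by
    refine lt_of_le_of_lt hr ?_
    rw [ENNReal.div_lt_iff (by norm_num) (by norm_num)]
    have : (2 : ℝ≥0∞)⁻¹ * 15 = 15 / 2 := by rw [mul_comm, div_eq_mul_inv]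
    rw [this, ENNReal.lt_div_iff_mul_lt (by norm_num) (by norm_num)]
    norm_num
  obtain ⟨h1, h2, h3⟩ := ne_top_of_lt h hr2
  obtain ⟨a1, a2, a3, a4, a5, -⟩ := holder_real h h1 h2 h3
  have hrr : r.toReal ≤ 7 / 15 := by
    have := ENNReal.toReal_mono (by
      exact (ENNReal.div_lt_top (by norm_num) (by norm_num)).ne) hr
    simpa [ENNReal.toReal_div] using this
  obtain ⟨n, w, x, t, hw, hw1, hinj, hθ⟩ := hNUM
  refine crit hANA hHOM hPUSH hRGH hTEN hENT h h1 h2 h3 (by linarith) n w x t hw hw1 hinj ?_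
  have hsum : 15 / 7 ≤ p₁.toReal⁻¹ + p₂.toReal⁻¹ + p₃.toReal⁻¹ := by
    have e : p₁.toReal⁻¹ + p₂.toReal⁻¹ + p₃.toReal⁻¹ = 1 / r.toReal := by
      rw [a5]; simp only [one_div]
    rw [e, le_div_iff₀ a4]; linarith
  have := hθ p₁.toReal⁻¹ p₂.toReal⁻¹ p₃.toReal⁻¹ (by positivity) (by positivity)
    (by positivity) hsum
  have e : r.toReal⁻¹ = p₁.toReal⁻¹ + p₂.toReal⁻¹ + p₃.toReal⁻¹ := by
    simpa [one_div] using a5
  rw [e]; exact this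

/-- Real-variable core of the two face statements. -/
theorem face_core (hLOGF : LOGFStmt) (b : ℝ) (hb : 1 < b) {p q : ℝ≥0∞} (hp : 1 < p)
    (hq : 1 < q) (hpq : 1 < p⁻¹ + q⁻¹) :
    ∃ s : ℝ≥0∞, 1 < s ∧ s ≠ ⊤ ∧ ∀ u : ℝ≥0∞, 1 < u → u < s → ∃ m : ℕ, 1 ≤ m ∧
      (m : ℝ) ^ (1 / p.toReal) * b ^ (1 / u.toReal) * ((m : ℝ) + 2) ^ (1 / q.toReal) <
        (b * (m : ℝ)) ^ (1 / p.toReal + 1 / q.toReal + 1 / u.toReal - 1) := by
  have hp' : p ≠ ⊤ := by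
    rintro rfl
    rw [ENNReal.inv_top, zero_add] at hpq
    exact absurd (hpq.trans_le (ENNReal.inv_le_one.2 hq.le)) (lt_irrefl _)
  have hq' : q ≠ ⊤ := by
    rintro rfl
    rw [ENNReal.inv_top, add_zero] at hpq
    exact absurd (hpq.trans_le (ENNReal.inv_le_one.2 hp.le)) (lt_irrefl _)
  have g : ∀ p : ℝ≥0∞, 1 < p → p ≠ ⊤ → 1 < p.toReal := by
    intro p hp hp'
    have := (ENNReal.toReal_lt_toReal ENNReal.one_ne_top hp').2 hp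
    simpa using this
  have hp1 := g p hp hp'
  have hq1 := g q hq hq'
  have hpq' : 1 < 1 / p.toReal + 1 / q.toReal := by
    have n1 : p⁻¹ ≠ ⊤ := ENNReal.inv_ne_top.2 (lt_trans one_pos hp).ne'
    have n2 : q⁻¹ ≠ ⊤ := ENNReal.inv_ne_top.2 (lt_trans one_pos hq).ne'
    have := (ENNReal.toReal_lt_toReal ENNReal.one_ne_top (ENNReal.add_ne_top.2 ⟨n1, n2⟩)).2 hpq
    rw [ENNReal.toReal_add n1 n2, ENNReal.toReal_inv, ENNReal.toReal_inv] at this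
    simpa [one_div] using this
  have pos1 : 0 < 1 / p.toReal := by positivity
  have pos2 : 0 < 1 / q.toReal := by positivity
  have lt1 : 1 / p.toReal < 1 := by rw [div_lt_one (by linarith)]; exact hp1
  have lt2 : 1 / q.toReal < 1 := by rw [div_lt_one (by linarith)]; exact hq1
  obtain ⟨θ₀, hθ₀, H⟩ := hLOGF b (1 / p.toReal) (1 / q.toReal) hb pos1 lt1 pos2 lt2 hpq'
  set θ₁ : ℝ := max θ₀ (1 / 2) with hθ₁
  have hθ₁lt : θ₁ < 1 := max_lt hθ₀ (by norm_num)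
  have hθ₁pos : 0 < θ₁ := lt_of_lt_of_le (by norm_num) (le_max_right _ _)
  refine ⟨ENNReal.ofReal (1 / θ₁), ?_, ENNReal.ofReal_ne_top, ?_⟩
  · rw [← ENNReal.ofReal_one]
    exact (ENNReal.ofReal_lt_ofReal_iff (by positivity)).2 ((one_lt_div hθ₁pos).2 hθ₁lt)
  · intro u hu hus
    have hu' : u ≠ ⊤ := (hus.trans ENNReal.ofReal_lt_top).ne
    have hu1 := g u hu hu'
    have hul : u.toReal < 1 / θ₁ := by
      have := (ENNReal.toReal_lt_toReal hu' ENNReal.ofReal_ne_top).2 hus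
      rwa [ENNReal.toReal_ofReal (by positivity)] at this
    have k1 : θ₁ < 1 / u.toReal := by
      rw [lt_div_iff₀ (by linarith)]
      rw [lt_div_iff₀ hθ₁pos] at hul
      linarith
    exact H (1 / u.toReal) (lt_of_le_of_lt (le_max_left _ _) k1)
      ((div_lt_one (by linarith)).2 hu1) (by positivity)

theorem face2 (hANA : ANAStmt) (hHOM : HOMStmt) (hPUSH : PUSHStmt)
    (hRGH : RGHStmt) (hTEN : TENStmt) (hF : FACE2Stmt) (hLOGF : LOGFStmt)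
    {p₁ p₃ : ℝ≥0∞} (h1 : 1 < p₁) (h3 : 1 < p₃) (h13 : 1 < p₁⁻¹ + p₃⁻¹) :
    ∃ q : ℝ≥0∞, 1 < q ∧ ∀ p₂ r : ℝ≥0∞, p₂ < q → IsHolder p₁ p₂ p₃ r →
      ¬ BoundedAt p₁ p₂ p₃ r := by
  obtain ⟨s, hs1, hs, H⟩ := face_core hLOGF 2 (by norm_num) h1 h3 h13
  refine ⟨s, hs1, fun p₂ r hp hh hb => ?_⟩
  have t1 : p₁ ≠ ⊤ := by
    rintro rfl
    rw [ENNReal.inv_top, zero_add] at h13
    exact absurd (h13.trans_le (ENNReal.inv_le_one.2 h3.le)) (lt_irrefl _)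
  have t3 : p₃ ≠ ⊤ := by
    rintro rfl
    rw [ENNReal.inv_top, add_zero] at h13
    exact absurd (h13.trans_le (ENNReal.inv_le_one.2 h1.le)) (lt_irrefl _)
  have t2 : p₂ ≠ ⊤ := (hp.trans (lt_top_iff_ne_top.2 hs)).ne
  obtain ⟨a1, a2, a3, a4, a5, -⟩ := holder_real hh t1 t2 t3
  obtain ⟨m, hm, hlt⟩ := H p₂ hh.one_lt₂ hp
  have hr : r.toReal < 1 := by
    have n1 : p₁⁻¹ ≠ ⊤ := ENNReal.inv_ne_top.2 (lt_trans one_pos h1).ne'
    have n2 : p₃⁻¹ ≠ ⊤ := ENNReal.inv_ne_top.2 (lt_trans one_pos h3).ne'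
    have := (ENNReal.toReal_lt_toReal ENNReal.one_ne_top (ENNReal.add_ne_top.2 ⟨n1, n2⟩)).2 h13
    rw [ENNReal.toReal_add n1 n2, ENNReal.toReal_inv, ENNReal.toReal_inv] at this
    have h0 : 1 < 1 / p₁.toReal + 1 / p₃.toReal := by simpa [one_div] using this
    have h0' : 0 < 1 / p₂.toReal := by positivity
    have : 1 < 1 / r.toReal := by rw [a5]; linarith
    rwa [lt_div_iff₀ a4, one_mul] at this
  have hsh := sharp_of_bounded hANA hHOM hPUSH hRGH hTEN hh t1 t2 t3 hr hb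
  have := hF _ _ _ _ a1 a2 a3 a4 hr hsh m hm
  rw [a5] at this
  have e : 1 / p₁.toReal + 1 / p₂.toReal + 1 / p₃.toReal - 1 =
    1 / p₁.toReal + 1 / p₃.toReal + 1 / p₂.toReal - 1 := by ring
  rw [e] at this
  exact absurd (lt_of_le_of_lt this hlt) (lt_irrefl _)

theorem face3 (hANA : ANAStmt) (hHOM : HOMStmt) (hPUSH : PUSHStmt)
    (hRGH : RGHStmt) (hTEN : TENStmt) (hF : FACE3Stmt) (hLOGF : LOGFStmt)
    {p₁ p₂ : ℝ≥0∞} (h1 : 1 < p₁) (h2 : 1 < p₂) (h12 : 1 < p₁⁻¹ + p₂⁻¹) :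
    ∃ q : ℝ≥0∞, 1 < q ∧ ∀ p₃ r : ℝ≥0∞, p₃ < q → IsHolder p₁ p₂ p₃ r →
      ¬ BoundedAt p₁ p₂ p₃ r := by
  obtain ⟨s, hs1, hs, H⟩ := face_core hLOGF 3 (by norm_num) h1 h2 h12
  refine ⟨s, hs1, fun p₃ r hp hh hb => ?_⟩
  have t1 : p₁ ≠ ⊤ := by
    rintro rfl
    rw [ENNReal.inv_top, zero_add] at h12
    exact absurd (h12.trans_le (ENNReal.inv_le_one.2 h2.le)) (lt_irrefl _)
  have t2 : p₂ ≠ ⊤ := by
    rintro rfl
    rw [ENNReal.inv_top, add_zero] at h12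
    exact absurd (h12.trans_le (ENNReal.inv_le_one.2 h1.le)) (lt_irrefl _)
  have t3 : p₃ ≠ ⊤ := (hp.trans (lt_top_iff_ne_top.2 hs)).ne
  obtain ⟨a1, a2, a3, a4, a5, -⟩ := holder_real hh t1 t2 t3
  obtain ⟨m, hm, hlt⟩ := H p₃ hh.one_lt₃ hp
  have hr : r.toReal < 1 := by
    have n1 : p₁⁻¹ ≠ ⊤ := ENNReal.inv_ne_top.2 (lt_trans one_pos h1).ne'
    have n2 : p₂⁻¹ ≠ ⊤ := ENNReal.inv_ne_top.2 (lt_trans one_pos h2).ne'
    have := (ENNReal.toReal_lt_toReal ENNReal.one_ne_top (ENNReal.add_ne_top.2 ⟨n1, n2⟩)).2 h12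
    rw [ENNReal.toReal_add n1 n2, ENNReal.toReal_inv, ENNReal.toReal_inv] at this
    have h0 : 1 < 1 / p₁.toReal + 1 / p₂.toReal := by simpa [one_div] using this
    have h0' : 0 < 1 / p₃.toReal := by positivity
    have : 1 < 1 / r.toReal := by rw [a5]; linarith
    rwa [lt_div_iff₀ a4, one_mul] at this
  have hsh := sharp_of_bounded hANA hHOM hPUSH hRGH hTEN hh t1 t2 t3 hr hb
  have := hF _ _ _ _ a1 a2 a3 a4 hr hsh m hm
  rw [a5] at this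
  have e : (m : ℝ) ^ (1 / p₁.toReal) * ((m : ℝ) + 2) ^ (1 / p₂.toReal) *
      (3 : ℝ) ^ (1 / p₃.toReal) = (m : ℝ) ^ (1 / p₁.toReal) *
      (3 : ℝ) ^ (1 / p₃.toReal) * ((m : ℝ) + 2) ^ (1 / p₂.toReal) := by ring
  rw [e] at this
  exact absurd (lt_of_le_of_lt this hlt) (lt_irrefl _)

end Vale.P141
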