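import Vale.Agent.P141.Mods

/-!
# P141: module HOM
-/

open Finset

namespace Vale.P141

/-- Linear homomorphism `x ↦ ∑ a_j x_j mod N`. -/
def homA {K N : ℕ} (a : Fin K → ZMod N) : (Fin K → ℤ) →+ ZMod N where
  toFun x := ∑ j, a j * ((x j : ℤ) : ZMod N)
  map_zero' := by simp
  map_add' x y := by
    rw [← Finset.sum_add_distrib]
    apply Finset.sum_congr rfl
    intro j _
    rw [Pi.add_apply]
    push_cast
    ring

theorem homA_apply {K N : ℕ} (a : Fin K → ZMod N) (x : Fin K → ℤ) :
    homA a x = ∑ j, a j * ((x j : ℤ) : ZMod N) := rfl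

theorem ker_card {K N : ℕ} [Fact N.Prime] (d : Fin K → ZMod N) (hd : ∃ j, d j ≠ 0) :
    N * (univ.filter (fun a : Fin K → ZMod N => ∑ j, a j * d j = 0)).card ≤ N ^ K := by
  classical
  obtain ⟨j, hj⟩ := hd
  set S := univ.filter (fun a : Fin K → ZMod N => ∑ j, a j * d j = 0) with hS
  have hsum : ∀ (a : Fin K → ZMod N) (c : ZMod N),
      ∑ i, (a + Pi.single j c : Fin K → ZMod N) i * d i = ∑ i, a i * d i + c * d j := by
    intro a c
    simp only [Pi.add_apply, add_mul, Finset.sum_add_distrib]
    congr 1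
    rw [Finset.sum_eq_single j]
    · simp
    · intro b _ hb
      simp [Pi.single_eq_of_ne hb]
    · intro h; exact absurd (mem_univ j) h
  have hinj : Set.InjOn (fun q : (Fin K → ZMod N) × ZMod N => (q.1 + Pi.single j q.2))
      ((S ×ˢ (univ : Finset (ZMod N)) : Finset _) : Set ((Fin K → ZMod N) × ZMod N)) := by
    intro q hq q' hq' h
    rw [Finset.mem_coe, Finset.mem_product] at hq hq'
    have k1 : ∑ i, q.1 i * d i = 0 := by simpa [hS] using hq.1
    have k2 : ∑ i, q'.1 i * d i = 0 := by simpa [hS] using hq'.1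
    have h' : q.1 + Pi.single j q.2 = q'.1 + Pi.single j q'.2 := h
    have e := hsum q.1 q.2
    rw [h', hsum q'.1 q'.2, k1, k2, zero_add, zero_add] at e
    have e2 : q.2 = q'.2 := (mul_right_cancel₀ hj e).symm
    rw [e2] at h'
    exact Prod.ext (add_right_cancel h') e2
  have := Finset.card_le_card_of_injOn (s := S ×ˢ (univ : Finset (ZMod N)))
    (t := (univ : Finset (Fin K → ZMod N)))
    (fun q => q.1 + Pi.single j q.2) (fun _ _ => mem_univ _) hinj
  rw [Finset.card_product, Finset.card_univ, ZMod.card, Finset.card_univ, Fintype.card_fun,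
    ZMod.card, Fintype.card_fin] at this
  rw [mul_comm]
  exact this

/-- Cauchy–Schwarz for fibres. -/
theorem card_sq_le {α β : Type*} [DecidableEq α] [DecidableEq β] (X : Finset α) (φ : α → β) :
    X.card ^ 2 ≤ (X.image φ).card *
      ((X ×ˢ X).filter (fun q => φ q.1 = φ q.2)).card := by
  have e1 : X.card = ∑ b ∈ X.image φ, (X.filter (fun x => φ x = b)).card :=
    Finset.card_eq_sum_card_image φ X
  have e2 : ((X ×ˢ X).filter (fun q => φ q.1 = φ q.2)).card =
      ∑ b ∈ X.image φ, (X.filter (fun x => φ x = b)).card ^ 2 := by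
    rw [Finset.card_eq_sum_card_fiberwise (f := fun q : α × α => φ q.1) (t := X.image φ)]
    · apply Finset.sum_congr rfl
      intro b _
      rw [sq, ← Finset.card_product]
      congr 1
      ext q
      simp only [Finset.mem_filter, Finset.mem_product]
      constructor
      · rintro ⟨⟨⟨h1, h2⟩, h3⟩, h4⟩
        exact ⟨⟨h1, h4⟩, h2, h3 ▸ h4⟩
      · rintro ⟨⟨h1, h2⟩, h3, h4⟩
        exact ⟨⟨⟨h1, h3⟩, h2.trans h4.symm⟩, h2⟩
    · intro q hq
      simp only [Finset.coe_filter, Finset.mem_product, Set.mem_setOf_eq] at hq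
      exact Finset.mem_coe.2 (Finset.mem_image_of_mem _ hq.1.1)
  rw [e2]
  conv_lhs => rw [e1]
  exact sq_sum_le_card_mul_sum_sq

theorem hom_main : HOMStmt := by
  classical
  intro B
  refine ⟨4 * B + 4, ?_⟩
  intro K X hXne hXB
  have hX1 : 1 ≤ X.card := hXne.card_pos
  obtain ⟨N, hNp, hN1, hN2⟩ := Nat.exists_prime_lt_and_le_two_mul (X.card + 2 * B + 1)
    (by omega)
  haveI : Fact N.Prime := ⟨hNp⟩
  haveI : NeZero N := ⟨hNp.ne_zero⟩
  have hNpos : 0 < N := hNp.pos
  -- pairwise counts
  have hpair : ∀ x ∈ X, ∀ y ∈ X, x ≠ y →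
      N * (univ.filter (fun a : Fin K → ZMod N => homA a x = homA a y)).card ≤ N ^ K := by
    intro x hx y hy hxy
    have hj : ∃ j, x j ≠ y j := by
      by_contra hcon
      push Not at hcon
      exact hxy (funext hcon)
    obtain ⟨j, hj⟩ := hj
    have hd : (((x j - y j : ℤ)) : ZMod N) ≠ 0 := by
      intro h0
      rw [ZMod.intCast_zmod_eq_zero_iff_dvd] at h0
      have hb : |x j - y j| < N := by
        have a1 := hXB x hx j
        have a2 := hXB y hy j
        have a3 : |x j - y j| ≤ |x j| + |y j| := abs_sub _ _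
        have a4 : ((X.card + 2 * B + 1 : ℕ) : ℤ) < N := by exact_mod_cast hN1
        push_cast at a4
        have : (0 : ℤ) ≤ X.card := by positivity
        linarith
      have := Int.eq_zero_of_abs_lt_dvd h0 hb
      exact hj (by linarith)
    have hk := ker_card (fun i => (((x i - y i : ℤ)) : ZMod N)) ⟨j, hd⟩
    have he : (univ.filter (fun a : Fin K → ZMod N => homA a x = homA a y)) =
        (univ.filter (fun a : Fin K → ZMod N =>
          ∑ i, a i * (((x i - y i : ℤ)) : ZMod N) = 0)) := by
      apply Finset.filter_congr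
      intro a _
      rw [← sub_eq_zero, homA_apply, homA_apply, ← Finset.sum_sub_distrib]
      simp only [Int.cast_sub, mul_sub]
    rw [he]; exact hk
  -- averaged collision number
  set E : (Fin K → ZMod N) → ℕ := fun a =>
    ((X ×ˢ X).filter (fun q => homA a q.1 = homA a q.2)).card with hE
  have hsumE : ∑ a, E a = ∑ q ∈ X ×ˢ X,
      (univ.filter (fun a : Fin K → ZMod N => homA a q.1 = homA a q.2)).card := by
    simp only [hE, Finset.card_filter]
    rw [Finset.sum_comm]
  have hcardall : (univ : Finset (Fin K → ZMod N)).card = N ^ K := by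
    rw [Finset.card_univ, Fintype.card_fun, ZMod.card, Fintype.card_fin]
  have htot : N * ∑ a, E a ≤ 2 * X.card * (N * N ^ K) := by
    rw [hsumE, Finset.mul_sum]
    have hsplit : ∀ q ∈ X ×ˢ X,
        N * (univ.filter (fun a : Fin K → ZMod N => homA a q.1 = homA a q.2)).card ≤
          (if q.1 = q.2 then N * N ^ K else 0) + N ^ K := by
      intro q hq
      rw [Finset.mem_product] at hq
      by_cases h : q.1 = q.2
      · rw [if_pos h]
        have : (univ.filter (fun a : Fin K → ZMod N => homA a q.1 = homA a q.2)).card ≤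
            N ^ K := by
          rw [← hcardall]; exact Finset.card_le_card (Finset.filter_subset _ _)
        exact (Nat.mul_le_mul_left N this).trans (Nat.le_add_right _ _)
      · rw [if_neg h, zero_add]
        exact hpair q.1 hq.1 q.2 hq.2 h
    refine (Finset.sum_le_sum hsplit).trans ?_
    rw [Finset.sum_add_distrib, Finset.sum_const, Finset.card_product, ← Finset.sum_filter,
      Finset.sum_const]
    have hdiag : ((X ×ˢ X).filter (fun q => q.1 = q.2)).card = X.card := by
      have : (X ×ˢ X).filter (fun q => q.1 = q.2) = X.image (fun x => (x, x)) := by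
        ext ⟨a, b⟩
        simp only [Finset.mem_filter, Finset.mem_product, Finset.mem_image, Prod.mk.injEq]
        constructor
        · rintro ⟨⟨h1, _⟩, h3⟩; exact ⟨a, h1, rfl, h3⟩
        · rintro ⟨c, h1, rfl, rfl⟩; exact ⟨⟨h1, h1⟩, rfl⟩
      rw [this, Finset.card_image_of_injective _ (fun a b h => (Prod.mk.inj h).1)]
    rw [hdiag, smul_eq_mul, smul_eq_mul]
    have hle : X.card ≤ N := by omega
    calc X.card * (N * N ^ K) + X.card * X.card * N ^ K
        ≤ X.card * (N * N ^ K) + X.card * N * N ^ K := by gcongr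
      _ = 2 * X.card * (N * N ^ K) := by ring
  have htot2 : ∑ a, E a ≤ 2 * X.card * N ^ K := by
    have : N * ∑ a, E a ≤ N * (2 * X.card * N ^ K) := by
      refine htot.trans (le_of_eq ?_); ring
    exact Nat.le_of_mul_le_mul_left this hNpos
  have hex : ∃ a : Fin K → ZMod N, E a ≤ 2 * X.card := by
    by_contra hcon
    push Not at hcon
    have : ∑ a : Fin K → ZMod N, 2 * X.card < ∑ a, E a := by
      apply Finset.sum_lt_sum_of_nonempty
      · exact Finset.univ_nonempty
      · intro a _; exact hcon a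
    rw [Finset.sum_const, hcardall, smul_eq_mul] at this
    have h3 : N ^ K * (2 * X.card) = 2 * X.card * N ^ K := by ring
    omega
  obtain ⟨a, ha⟩ := hex
  refine ⟨N, inferInstance, homA a, ?_, ?_⟩
  · calc N ≤ 2 * (X.card + 2 * B + 1) := hN2
      _ ≤ (4 * B + 4) * X.card := by nlinarith
  · have hcs := card_sq_le X (fun x => homA a x)
    have h2 : X.card ^ 2 ≤ (X.image (fun x => homA a x)).card * (2 * X.card) :=
      hcs.trans (Nat.mul_le_mul_left _ ha)
    have h3 : X.card * X.card ≤ X.card * (2 * (X.image (fun x => homA a x)).card) := by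
      nlinarith
    have h4 := Nat.le_of_mul_le_mul_left h3 (by omega)
    exact h4

end Vale.P141
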