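import Vale.Agent.P141.Mods

/-!
# P141: module LIM (existence of the principal value for Schwartz functions)
-/

open MeasureTheory Filter Topology
open scoped ENNReal NNReal SchwartzMap ContDiff

namespace Vale.P141

/-- The principal value limit for an integrable function that is Lipschitz on `[-1,1]`. -/
theorem pv_exists (F : ℝ → ℂ) (hFm : Measurable F) (hFi : Integrable F) (L : ℝ)
    (hL : ∀ t : ℝ, |t| ≤ 1 → ‖F t - F 0‖ ≤ L * |t|) :
    ∃ z : ℂ, Tendsto (fun q : ℝ × ℝ => ∫ t in {t : ℝ | q.1 < |t| ∧ |t| < q.2}, F t / (t : ℂ))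
      ((𝓝[>] (0 : ℝ)) ×ˢ (atTop : Filter ℝ)) (𝓝 z) := by
  set I : Set ℝ := {t : ℝ | |t| < 1} with hI
  have hIm : MeasurableSet I := measurableSet_lt (measurable_norm) measurable_const
  set K : ℝ → ℂ := fun t => (F t - I.indicator (fun _ => F 0) t) / (t : ℂ) with hK
  set O : ℝ → ℂ := fun t => I.indicator (fun _ => F 0) t / (t : ℂ) with hO
  have hL0 : 0 ≤ L := by
    have := hL 1 (by norm_num)
    rw [abs_one, mul_one] at this
    exact (norm_nonneg _).trans this
  have hKm : Measurable K := by
    exact (hFm.sub (measurable_const.indicator hIm)).div Complex.measurable_ofReal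
  have hOm : Measurable O := by
    exact (measurable_const.indicator hIm).div Complex.measurable_ofReal
  have hKb : ∀ t, ‖K t‖ ≤ (Set.Icc (-1 : ℝ) 1).indicator (fun _ => L) t + ‖F t‖ := by
    intro t
    simp only [hK]
    rw [norm_div, Complex.norm_real, Real.norm_eq_abs]
    by_cases ht : t ∈ I
    · have ht' : |t| < 1 := ht
      rw [Set.indicator_of_mem ht]
      have hin : t ∈ Set.Icc (-1 : ℝ) 1 := by
        rw [abs_lt] at ht'
        exact ⟨ht'.1.le, ht'.2.le⟩
      rw [Set.indicator_of_mem hin]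
      by_cases h0 : t = 0
      · subst h0
        simp only [sub_self, norm_zero, zero_div]
        positivity
      · have hpos : 0 < |t| := abs_pos.2 h0
        have := hL t ht'.le
        have h1 : ‖F t - F 0‖ / |t| ≤ L := by rwa [div_le_iff₀ hpos]
        linarith [norm_nonneg (F t)]
    · have ht' : 1 ≤ |t| := not_lt.1 ht
      rw [Set.indicator_of_notMem ht, sub_zero]
      have h1 : ‖F t‖ / |t| ≤ ‖F t‖ := div_le_self (norm_nonneg _) ht'
      have h2 : 0 ≤ (Set.Icc (-1 : ℝ) 1).indicator (fun _ => L) t :=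
        Set.indicator_nonneg (fun _ _ => hL0) _
      linarith
  have hKi : Integrable K := by
    refine Integrable.mono' (g := fun t => (Set.Icc (-1 : ℝ) 1).indicator (fun _ => L) t + ‖F t‖)
      ?_ hKm.aestronglyMeasurable (Eventually.of_forall hKb)
    apply Integrable.add _ hFi.norm
    apply (integrable_indicator_iff measurableSet_Icc).2
    exact integrableOn_const (by simp) (by simp)
  have hSm : ∀ q : ℝ × ℝ, MeasurableSet {t : ℝ | q.1 < |t| ∧ |t| < q.2} := fun q =>
    (measurableSet_lt measurable_const measurable_norm).inter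
      (measurableSet_lt measurable_norm measurable_const)
  refine ⟨∫ t, K t, ?_⟩
  have hdc : Tendsto (fun q : ℝ × ℝ => ∫ t, {t : ℝ | q.1 < |t| ∧ |t| < q.2}.indicator K t)
      ((𝓝[>] (0 : ℝ)) ×ˢ (atTop : Filter ℝ)) (𝓝 (∫ t, K t)) := by
    apply tendsto_integral_filter_of_dominated_convergence (fun t => ‖K t‖)
    · exact Eventually.of_forall fun q => (hKm.indicator (hSm q)).aestronglyMeasurable
    · exact Eventually.of_forall fun q => Eventually.of_forall fun t =>
        norm_indicator_le_norm_self _ _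
    · exact hKi.norm
    · have hae : ∀ᵐ t : ℝ, t ≠ 0 := by
        have : volume ({0} : Set ℝ) = 0 := by simp
        exact compl_mem_ae_iff.2 this
      filter_upwards [hae] with t ht
      have hpos : 0 < |t| := abs_pos.2 ht
      apply tendsto_const_nhds.congr'
      have e1 : ∀ᶠ ε in 𝓝[>] (0 : ℝ), ε ∈ Set.Ioo (0 : ℝ) |t| := Ioo_mem_nhdsGT hpos
      have e2 : ∀ᶠ R : ℝ in atTop, |t| < R := eventually_gt_atTop _
      filter_upwards [e1.prod_mk e2] with q hq
      rw [Set.indicator_of_mem]
      exact ⟨hq.1.2, hq.2⟩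
  apply hdc.congr'
  have e1 : ∀ᶠ ε in 𝓝[>] (0 : ℝ), ε ∈ Set.Ioi (0 : ℝ) := self_mem_nhdsWithin
  have e2 : ∀ᶠ _R : ℝ in (atTop : Filter ℝ), True := Eventually.of_forall fun _ => trivial
  filter_upwards [e1.prod_mk e2] with q hq
  have hε : 0 < q.1 := hq.1
  have hS := hSm q
  set S : Set ℝ := {t : ℝ | q.1 < |t| ∧ |t| < q.2} with hSdef
  rw [integral_indicator hS]
  have hsum : ∀ t, F t / (t : ℂ) = K t + O t := by
    intro t
    simp only [hK, hO]
    rw [← add_div, sub_add_cancel]
  have hOb : ∀ t ∈ S, ‖O t‖ ≤ (Set.Icc (-1 : ℝ) 1).indicator (fun _ => ‖F 0‖ / q.1) t := by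
    intro t ht
    simp only [hO]
    by_cases hti : t ∈ I
    · have ht' : |t| < 1 := hti
      rw [Set.indicator_of_mem hti]
      have hin : t ∈ Set.Icc (-1 : ℝ) 1 := by
        rw [abs_lt] at ht'
        exact ⟨ht'.1.le, ht'.2.le⟩
      rw [Set.indicator_of_mem hin, norm_div, Complex.norm_real, Real.norm_eq_abs]
      exact div_le_div_of_nonneg_left (norm_nonneg _) hε ht.1.le
    · rw [Set.indicator_of_notMem hti, zero_div, norm_zero]
      exact Set.indicator_nonneg (fun _ _ => by positivity) _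
  have hOi : IntegrableOn O S := by
    have hg : Integrable ((Set.Icc (-1 : ℝ) 1).indicator (fun _ : ℝ => ‖F 0‖ / q.1)) := by
      apply (integrable_indicator_iff measurableSet_Icc).2
      exact integrableOn_const (by simp) (by simp)
    refine Integrable.mono' (g := (Set.Icc (-1 : ℝ) 1).indicator (fun _ => ‖F 0‖ / q.1))
      hg.integrableOn hOm.aestronglyMeasurable ?_
    exact (ae_restrict_iff' hS).2 (Eventually.of_forall hOb)
  have hOz : ∫ t in S, O t = 0 := by
    rw [← integral_indicator hS]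
    have hodd : ∀ t, S.indicator O (-t) = - S.indicator O t := by
      intro t
      have hmem : (-t ∈ S) ↔ (t ∈ S) := by
        simp only [hSdef, Set.mem_setOf_eq, abs_neg]
      have hmemI : (-t ∈ I) ↔ (t ∈ I) := by
        simp only [hI, Set.mem_setOf_eq, abs_neg]
      by_cases h : t ∈ S
      · rw [Set.indicator_of_mem h, Set.indicator_of_mem (hmem.2 h)]
        simp only [hO]
        by_cases h' : t ∈ I
        · rw [Set.indicator_of_mem h', Set.indicator_of_mem (hmemI.2 h')]
          push_cast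
          rw [div_neg]
        · rw [Set.indicator_of_notMem h', Set.indicator_of_notMem (fun hh => h' (hmemI.1 hh))]
          simp
      · rw [Set.indicator_of_notMem h, Set.indicator_of_notMem (fun hh => h (hmem.1 hh)),
          neg_zero]
    have h1 : ∫ t, S.indicator O (-t) = ∫ t, S.indicator O t :=
      integral_neg_eq_self (S.indicator O) volume
    simp_rw [hodd] at h1
    rw [integral_neg] at h1
    exact self_eq_neg.1 h1.symm
  have : ∫ t in S, F t / (t : ℂ) = ∫ t in S, (K t + O t) := by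
    simp_rw [hsum]
  rw [this, integral_add hKi.integrableOn hOi, hOz, add_zero]

theorem lim_main : LIMStmt := by
  intro f₁ f₂ f₃ x
  have c1 : ContDiff ℝ 1 (fun t : ℝ => f₁ (x - t)) :=
    (f₁.smooth 1).comp (contDiff_const.sub contDiff_id)
  have c2 : ContDiff ℝ 1 (fun t : ℝ => f₂ (x - 2 * t)) :=
    (f₂.smooth 1).comp (contDiff_const.sub (contDiff_const.mul contDiff_id))
  have c3 : ContDiff ℝ 1 (fun t : ℝ => f₃ (x - 3 * t)) :=
    (f₃.smooth 1).comp (contDiff_const.sub (contDiff_const.mul contDiff_id))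
  set F : ℝ → ℂ := fun t => f₁ (x - t) * f₂ (x - 2 * t) * f₃ (x - 3 * t) with hF
  have cF : ContDiff ℝ 1 F := (c1.mul c2).mul c3
  have hFi : Integrable F := by
    have h1 : Integrable (fun t : ℝ => f₁ (x - t)) := (f₁.integrable (μ := volume)).comp_sub_left x
    refine Integrable.mono' (g := fun t => ‖f₁ (x - t)‖ *
      (SchwartzMap.seminorm ℝ 0 0 f₂ * SchwartzMap.seminorm ℝ 0 0 f₃))
      (h1.norm.mul_const _) cF.continuous.aestronglyMeasurable (Eventually.of_forall ?_)
    intro t
    simp only [hF]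
    rw [norm_mul, norm_mul, mul_assoc]
    have b2 := SchwartzMap.norm_le_seminorm ℝ f₂ (x - 2 * t)
    have b3 := SchwartzMap.norm_le_seminorm ℝ f₃ (x - 3 * t)
    apply mul_le_mul_of_nonneg_left _ (norm_nonneg _)
    exact mul_le_mul b2 b3 (norm_nonneg _) ((norm_nonneg _).trans b2)
  have hcd : Continuous (deriv F) := cF.continuous_deriv le_rfl
  obtain ⟨L, hL⟩ := (isCompact_Icc (a := (-1 : ℝ)) (b := 1)).exists_bound_of_continuousOn
    hcd.continuousOn
  have hLip : ∀ t : ℝ, |t| ≤ 1 → ‖F t - F 0‖ ≤ L * |t| := by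
    intro t ht
    rw [abs_le] at ht
    have := Convex.norm_image_sub_le_of_norm_deriv_le (f := F) (C := L)
      (s := Set.Icc (-1 : ℝ) 1) (x := 0) (y := t)
      (fun y _ => (cF.differentiable one_ne_zero).differentiableAt) (fun y hy => hL y hy)
      (convex_Icc _ _) (by constructor <;> norm_num) ⟨ht.1, ht.2⟩
    rw [sub_zero, Real.norm_eq_abs] at this
    exact this
  obtain ⟨z, hz⟩ := pv_exists F cF.continuous.measurable hFi L hLip
  have hz' : Tendsto (fun q : ℝ × ℝ => truncT f₁ f₂ f₃ q.1 q.2 x)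
      ((𝓝[>] (0 : ℝ)) ×ˢ (atTop : Filter ℝ)) (𝓝 z) := hz
  exact tendsto_nhds_limUnder ⟨z, hz'⟩

end Vale.P141
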