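import Vale.Agent.P141.Mods

/-!
# P141: module LOGF
-/

open Real

namespace Vale.P141

theorem logf_main : LOGFStmt := by
  intro b α β hb hα hα1 hβ hβ1 hab
  have hlb : 0 < Real.log b := Real.log_pos hb
  set κ : ℝ := (α + β - 1) * Real.log b with hκ
  have hκ0 : 0 < κ := mul_pos (by linarith) hlb
  obtain ⟨m, hm⟩ := exists_nat_gt (4 * β / κ)
  set M : ℕ := m + 1 with hM
  have hM1 : 1 ≤ M := by omega
  have hMpos : (0 : ℝ) < M := by exact_mod_cast (by omega : 0 < M)
  have hMr : 4 * β / κ < M := by
    rw [hM]; push_cast; linarith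
  have hlM : 0 ≤ Real.log M := Real.log_nonneg (by exact_mod_cast hM1)
  refine ⟨1 - κ / (2 * (Real.log M + 1)), by
    have : 0 < κ / (2 * (Real.log M + 1)) := by positivity
    linarith, ?_⟩
  intro θ hθ hθ1 hθ0
  refine ⟨M, hM1, ?_⟩
  have h1 : (1 - θ) * Real.log M < κ / 2 := by
    have a1 : 1 - θ < κ / (2 * (Real.log M + 1)) := by linarith
    rw [lt_div_iff₀ (by positivity)] at a1
    have a2 : 0 < 1 - θ := by linarith
    nlinarith
  have h2 : β * (Real.log (M + 2) - Real.log M) < κ / 2 := by
    have e : Real.log (M + 2) - Real.log M = Real.log (1 + 2 / M) := by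
      rw [← Real.log_div (by positivity) (by positivity)]
      congr 1
      field_simp
    rw [e]
    have a1 : Real.log (1 + 2 / M) ≤ 2 / M := by
      have := Real.log_le_sub_one_of_pos (show (0 : ℝ) < 1 + 2 / M by positivity)
      linarith
    have a2 : β * (2 / M) < κ / 2 := by
      rw [div_lt_iff₀ hκ0] at hMr
      have : β * (2 / M) = 2 * β / M := by ring
      rw [this, div_lt_iff₀ hMpos]
      nlinarith
    calc β * Real.log (1 + 2 / M) ≤ β * (2 / M) := by gcongr
      _ < κ / 2 := a2
  have hbpos : 0 < b := by linarith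
  rw [← Real.log_lt_log_iff (by positivity) (by positivity)]
  rw [Real.log_mul (by positivity) (by positivity), Real.log_mul (by positivity) (by positivity),
    Real.log_rpow hMpos, Real.log_rpow hbpos, Real.log_rpow (by positivity),
    Real.log_rpow (by positivity), Real.log_mul hbpos.ne' hMpos.ne']
  nlinarith

end Vale.P141
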