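import Vale.Agent.P141.Defs

/-!
# P141: statements of the modules (explicit proofs in notes/P141_plan.md)
-/

open MeasureTheory Filter Topology
open scoped ENNReal NNReal SchwartzMap

namespace Vale.P141

/-- LIM: the principal value exists for Schwartz functions. -/
def LIMStmt : Prop :=
  ∀ (f₁ f₂ f₃ : 𝓢(ℝ, ℂ)) (x : ℝ),
    Tendsto (fun q : ℝ × ℝ => truncT f₁ f₂ f₃ q.1 q.2 x)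
      ((𝓝[>] (0 : ℝ)) ×ˢ (atTop : Filter ℝ)) (𝓝 (THT f₁ f₂ f₃ x))

/-- ANA: boundedness of `T` gives a bound for the cyclic single-scale sums. -/
def ANAStmt : Prop :=
  ∀ (p₁ p₂ p₃ r : ℝ), 1 < p₁ → 1 < p₂ → 1 < p₃ → 0 < r →
    BoundedAt (ENNReal.ofReal p₁) (ENNReal.ofReal p₂) (ENNReal.ofReal p₃)
      (ENNReal.ofReal r) →
    ∃ C : ℝ, 0 < C ∧ ∀ (N : ℕ) [NeZero N] (G₁ G₂ G₃ : ZMod N → ℝ),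
      (∀ a, 0 ≤ G₁ a) → (∀ a, 0 ≤ G₂ a) → (∀ a, 0 ≤ G₃ a) →
      ∀ (X : Finset (ZMod N)) (lam : ℝ), 0 ≤ lam →
      (∀ x ∈ X, lam ≤ ∑ τ : ZMod N, G₁ (x - τ) * G₂ (x - 2 * τ) * G₃ (x - 3 * τ)) →
      lam * (X.card : ℝ) ^ (1 / r) ≤
        C * N * ((∑ a, G₁ a ^ p₁) ^ (1 / p₁) * (∑ a, G₂ a ^ p₂) ^ (1 / p₂) *
          (∑ a, G₃ a ^ p₃) ^ (1 / p₃))

/-- HOM: a random homomorphism to `ZMod N`, `N = O_B(|X|)`, keeps half of `X`. -/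
def HOMStmt : Prop :=
  ∀ B : ℕ, ∃ D : ℕ, ∀ (K : ℕ) (X : Finset (Fin K → ℤ)), X.Nonempty →
    (∀ x ∈ X, ∀ j, |x j| ≤ (B : ℤ)) →
    ∃ (N : ℕ) (_ : NeZero N) (φ : (Fin K → ℤ) →+ ZMod N),
      N ≤ D * X.card ∧ X.card ≤ 2 * (X.image φ).card

/-- PUSH: push-forward in `ℓ^p` of the fibres. -/
def PUSHStmt : Prop :=
  ∀ (p₁ p₂ p₃ : ℝ), 1 < p₁ → 1 < p₂ → 1 < p₃ → 1 ≤ 1 / p₁ + 1 / p₂ + 1 / p₃ →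
  ∀ (K N : ℕ) [NeZero N] (φ : (Fin K → ℤ) →+ ZMod N) (A : Finset (Fin K → ℤ))
    (F₁ F₂ F₃ : (Fin K → ℤ) → ℝ),
    (∀ z, 0 ≤ F₁ z) → (∀ z, 0 ≤ F₂ z) → (∀ z, 0 ≤ F₃ z) →
    (∀ z, z ∉ A → F₁ z = 0) → (∀ z, z ∉ A → F₂ z = 0) → (∀ z, z ∉ A → F₃ z = 0) →
    ∃ G₁ G₂ G₃ : ZMod N → ℝ,
      (∀ a, 0 ≤ G₁ a) ∧ (∀ a, 0 ≤ G₂ a) ∧ (∀ a, 0 ≤ G₃ a) ∧
      ∑ a, G₁ a ^ p₁ = ∑ z ∈ A, F₁ z ^ p₁ ∧ ∑ a, G₂ a ^ p₂ = ∑ z ∈ A, F₂ z ^ p₂ ∧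
      ∑ a, G₃ a ^ p₃ = ∑ z ∈ A, F₃ z ^ p₃ ∧
      ∀ (x : Fin K → ℤ) (W : Finset (Fin K → ℤ)),
        ∑ t ∈ W, F₁ (x - t) * F₂ (x - 2 • t) * F₃ (x - 3 • t) ≤
          ∑ τ : ZMod N, G₁ (φ x - τ) * G₂ (φ x - 2 * τ) * G₃ (φ x - 3 * τ)

/-- The rough bound on `ℤ^K`, with a constant independent of `K`. -/
def Rough (p₁ p₂ p₃ r : ℝ) : Prop :=
  ∀ B : ℕ, ∃ C : ℝ, 0 < C ∧ ∀ (K : ℕ) (X W A : Finset (Fin K → ℤ))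
    (F₁ F₂ F₃ : (Fin K → ℤ) → ℝ),
    (∀ z, 0 ≤ F₁ z) → (∀ z, 0 ≤ F₂ z) → (∀ z, 0 ≤ F₃ z) →
    (∀ z, z ∉ A → F₁ z = 0) → (∀ z, z ∉ A → F₂ z = 0) → (∀ z, z ∉ A → F₃ z = 0) →
    (∀ x ∈ X, ∀ j, |x j| ≤ (B : ℤ)) → X.Nonempty →
    ∀ lam : ℝ, 0 ≤ lam →
    (∀ x ∈ X, lam ≤ ∑ t ∈ W, F₁ (x - t) * F₂ (x - 2 • t) * F₃ (x - 3 • t)) →
    lam * (X.card : ℝ) ^ (1 / r - 1) ≤
      C * ((∑ z ∈ A, F₁ z ^ p₁) ^ (1 / p₁) * (∑ z ∈ A, F₂ z ^ p₂) ^ (1 / p₂) *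
        (∑ z ∈ A, F₃ z ^ p₃) ^ (1 / p₃))

/-- RGH: ANA + HOM + PUSH give `Rough`. -/
def RGHStmt : Prop :=
  ANAStmt → HOMStmt → PUSHStmt →
  ∀ (p₁ p₂ p₃ r : ℝ), 1 < p₁ → 1 < p₂ → 1 < p₃ → 0 < r →
    1 ≤ 1 / p₁ + 1 / p₂ + 1 / p₃ →
    BoundedAt (ENNReal.ofReal p₁) (ENNReal.ofReal p₂) (ENNReal.ofReal p₃)
      (ENNReal.ofReal r) → Rough p₁ p₂ p₃ r

/-- The sharp discrete inequality on `ℤ`, constant 1. -/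
def Sharp (p₁ p₂ p₃ r : ℝ) : Prop :=
  ∀ (X W A : Finset ℤ) (f₁ f₂ f₃ : ℤ → ℝ),
    (∀ z, 0 ≤ f₁ z) → (∀ z, 0 ≤ f₂ z) → (∀ z, 0 ≤ f₃ z) →
    (∀ z, z ∉ A → f₁ z = 0) → (∀ z, z ∉ A → f₂ z = 0) → (∀ z, z ∉ A → f₃ z = 0) →
    (∑ x ∈ X, (∑ t ∈ W, f₁ (x - t) * f₂ (x - 2 * t) * f₃ (x - 3 * t)) ^ (1 / (1 / r - 1)))
        ^ (1 / r - 1) ≤
      (∑ z ∈ A, f₁ z ^ p₁) ^ (1 / p₁) * (∑ z ∈ A, f₂ z ^ p₂) ^ (1 / p₂) *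
        (∑ z ∈ A, f₃ z ^ p₃) ^ (1 / p₃)

/-- TEN: tensor power trick. -/
def TENStmt : Prop :=
  ∀ (p₁ p₂ p₃ r : ℝ), 1 < p₁ → 1 < p₂ → 1 < p₃ → 0 < r → r < 1 →
    Rough p₁ p₂ p₃ r → Sharp p₁ p₂ p₃ r

/-- ENT: the sharp inequality implies the entropy inequality for all finite
integer-valued random pairs `(x,t)`. -/
def ENTStmt : Prop :=
  ∀ (p₁ p₂ p₃ r : ℝ), 1 < p₁ → 1 < p₂ → 1 < p₃ → 0 < r → r < 1 →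
    1 / r = 1 / p₁ + 1 / p₂ + 1 / p₃ → Sharp p₁ p₂ p₃ r →
    ∀ (n : ℕ) (w : Fin n → ℝ) (x t : Fin n → ℤ), (∀ i, 0 < w i) → ∑ i, w i = 1 →
      Function.Injective (fun i => (x i, t i)) →
      (1 / r - 2) * ent w x + (- ∑ i, w i * Real.log (w i)) ≤
        1 / p₁ * ent w (fun i => x i - t i) + 1 / p₂ * ent w (fun i => x i - 2 * t i) +
          1 / p₃ * ent w (fun i => x i - 3 * t i)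

/-- NUM: an explicit distribution on 19 four-term progressions violates the entropy
inequality whenever `θ₁+θ₂+θ₃ ≥ 15/7`. -/
def NUMStmt : Prop :=
  ∃ (n : ℕ) (w : Fin n → ℝ) (x t : Fin n → ℤ), (∀ i, 0 < w i) ∧ ∑ i, w i = 1 ∧
    Function.Injective (fun i => (x i, t i)) ∧
    ∀ θ₁ θ₂ θ₃ : ℝ, 0 ≤ θ₁ → 0 ≤ θ₂ → 0 ≤ θ₃ → 15 / 7 ≤ θ₁ + θ₂ + θ₃ →
      θ₁ * ent w (fun i => x i - t i) + θ₂ * ent w (fun i => x i - 2 * t i) +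
          θ₃ * ent w (fun i => x i - 3 * t i) <
        (θ₁ + θ₂ + θ₃ - 2) * ent w x + (- ∑ i, w i * Real.log (w i))

/-- FACE2: the family with small second set. -/
def FACE2Stmt : Prop :=
  ∀ (p₁ p₂ p₃ r : ℝ), 1 < p₁ → 1 < p₂ → 1 < p₃ → 0 < r → r < 1 →
    Sharp p₁ p₂ p₃ r → ∀ m : ℕ, 1 ≤ m →
      (2 * (m : ℝ)) ^ (1 / r - 1) ≤
        (m : ℝ) ^ (1 / p₁) * (2 : ℝ) ^ (1 / p₂) * ((m : ℝ) + 2) ^ (1 / p₃)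

/-- FACE3: the family with small third set. -/
def FACE3Stmt : Prop :=
  ∀ (p₁ p₂ p₃ r : ℝ), 1 < p₁ → 1 < p₂ → 1 < p₃ → 0 < r → r < 1 →
    Sharp p₁ p₂ p₃ r → ∀ m : ℕ, 1 ≤ m →
      (3 * (m : ℝ)) ^ (1 / r - 1) ≤
        (m : ℝ) ^ (1 / p₁) * ((m : ℝ) + 2) ^ (1 / p₂) * (3 : ℝ) ^ (1 / p₃)

/-- LOGF: the elementary consequence of the two families. `b = 2` (FACE2) or `b = 3`
(FACE3), `θ` = exponent of the small set. -/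
def LOGFStmt : Prop :=
  ∀ (b α β : ℝ), 1 < b → 0 < α → α < 1 → 0 < β → β < 1 → 1 < α + β →
    ∃ θ₀ : ℝ, θ₀ < 1 ∧ ∀ θ : ℝ, θ₀ < θ → θ < 1 → 0 < θ → ∃ m : ℕ, 1 ≤ m ∧
      (m : ℝ) ^ α * b ^ θ * ((m : ℝ) + 2) ^ β < (b * (m : ℝ)) ^ (α + β + θ - 1)

end Vale.P141
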