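import Vale.Agent.P141.Mods

/-!
# P141: module NUM
-/

open Real Finset

namespace Vale.P141

/-- Integer mass. -/
def nmass {n : ℕ} (k : Fin n → ℕ) (c : Fin n → ℤ) (i : Fin n) : ℕ :=
  ∑ j : Fin n, if c j = c i then k j else 0

/-- The product whose logarithm is `M (log M - H)`. -/
def nprod {n : ℕ} (k : Fin n → ℕ) (c : Fin n → ℤ) : ℕ := ∏ i : Fin n, nmass k c i ^ k i

theorem ent_eq {n : ℕ} (k : Fin n → ℕ) (hk : ∀ i, 0 < k i) (M : ℕ) (hM : 0 < M)
    (hsum : ∑ i, k i = M) (c : Fin n → ℤ) :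
    ent (fun i => (k i : ℝ) / M) c = Real.log M - Real.log (nprod k c) / M := by
  have hMr : (0 : ℝ) < M := by exact_mod_cast hM
  have hm : ∀ i, mass (fun i => (k i : ℝ) / M) c i = (nmass k c i : ℝ) / M := by
    intro i
    unfold mass nmass
    push_cast
    rw [Finset.sum_div]
    apply Finset.sum_congr rfl
    intro j _
    split_ifs <;> simp
  have hpos : ∀ i, 0 < nmass k c i := by
    intro i
    have : k i ≤ nmass k c i := by
      unfold nmass
      have := Finset.single_le_sum (f := fun j => if c j = c i then k j else 0)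
        (fun j _ => Nat.zero_le _) (mem_univ i)
      simpa using this
    exact lt_of_lt_of_le (hk i) this
  have hposr : ∀ i, (0 : ℝ) < (nmass k c i : ℝ) := fun i => by exact_mod_cast hpos i
  have hs : ∑ i, (k i : ℝ) = M := by exact_mod_cast hsum
  have hlog : Real.log (nprod k c) = ∑ i, (k i : ℝ) * Real.log (nmass k c i) := by
    unfold nprod
    push_cast
    rw [Real.log_prod (fun i _ => pow_ne_zero _ (hposr i).ne')]
    simp only [Real.log_pow]
  unfold ent
  simp_rw [hm]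
  have e : ∀ i, (k i : ℝ) / M * Real.log ((nmass k c i : ℝ) / M) =
      ((k i : ℝ) * Real.log (nmass k c i)) / M - (k i : ℝ) * (Real.log M / M) := by
    intro i
    rw [Real.log_div (hposr i).ne' hMr.ne']
    ring
  simp_rw [e]
  rw [Finset.sum_sub_distrib, ← Finset.sum_div, ← hlog, ← Finset.sum_mul, hs]
  field_simp
  ring

/-- The weights. -/
def kk : Fin 19 → ℕ := ![1, 1, 1, 1, 3, 3, 1, 1, 3, 6, 3, 1, 1, 3, 3, 1, 1, 1, 1]

/-- The values `x`. -/
def xx : Fin 19 → ℤ := ![-2, -3, -4, 2, 1, 0, -1, 6, 5, 4, 3, 2, 9, 8, 7, 6, 12, 11, 10]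

/-- The values `t`. -/
def tt : Fin 19 → ℤ := ![-2, -3, -4, 0, -1, -2, -3, 2, 1, 0, -1, -2, 3, 2, 1, 0, 4, 3, 2]

theorem num_main : NUMStmt := by
  have hk : ∀ i, 0 < kk i := by decide
  have hsum : ∑ i, kk i = 36 := by decide
  have hE := fun c => ent_eq kk hk 36 (by norm_num) hsum c
  refine ⟨19, fun i => (kk i : ℝ) / (36 : ℕ), xx, tt, ?_, ?_, ?_, ?_⟩
  · intro i
    have : (0 : ℝ) < kk i := by exact_mod_cast hk i
    positivity
  · rw [← Finset.sum_div]
    have : (∑ i, (kk i : ℝ)) = ((36 : ℕ) : ℝ) := by exact_mod_cast hsum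
    rw [this]
    norm_num
  · have : ∀ i j : Fin 19, (xx i, tt i) = (xx j, tt j) → i = j := by decide
    intro i j h
    exact this i j h
  · intro θ₁ θ₂ θ₃ h1 h2 h3 hσ
    -- values of the products
    have py1 : nprod kk (fun i => xx i - tt i) = 3 ^ 6 * 8 ^ 16 * 14 ^ 14 := by decide +kernel
    have py2 : nprod kk (fun i => xx i - 2 * tt i) = 3 ^ 6 * 8 ^ 16 * 14 ^ 14 := by
      decide +kernel
    have py3 : nprod kk (fun i => xx i - 3 * tt i) = 3 ^ 6 * 8 ^ 16 * 14 ^ 14 := by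
      decide +kernel
    have px : nprod kk xx = 2 ^ 4 * 3 ^ 18 * 6 ^ 6 := by decide +kernel
    have pS : ∏ i, kk i ^ kk i = 6 ^ 6 * 3 ^ 18 := by decide +kernel
    have hS : - ∑ i, (kk i : ℝ) / (36 : ℕ) * Real.log ((kk i : ℝ) / (36 : ℕ)) =
        Real.log (36 : ℕ) - Real.log ((6 ^ 6 * 3 ^ 18 : ℕ)) / (36 : ℕ) := by
      have hposr : ∀ i, (0 : ℝ) < (kk i : ℝ) := fun i => by exact_mod_cast hk i
      have hlog : Real.log ((6 ^ 6 * 3 ^ 18 : ℕ)) = ∑ i, (kk i : ℝ) * Real.log (kk i) := by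
        rw [← pS]
        push_cast
        rw [Real.log_prod (fun i _ => pow_ne_zero _ (hposr i).ne')]
        simp only [Real.log_pow]
      have e : ∀ i, (kk i : ℝ) / (36 : ℕ) * Real.log ((kk i : ℝ) / (36 : ℕ)) =
          ((kk i : ℝ) * Real.log (kk i)) / (36 : ℕ) -
            (kk i : ℝ) * (Real.log (36 : ℕ) / (36 : ℕ)) := by
        intro i
        rw [Real.log_div (hposr i).ne' (by norm_num)]
        ring
      simp_rw [e]
      rw [Finset.sum_sub_distrib, ← Finset.sum_div, ← hlog, ← Finset.sum_mul]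
      have : (∑ i, (kk i : ℝ)) = ((36 : ℕ) : ℝ) := by exact_mod_cast hsum
      rw [this]
      field_simp
      ring
    rw [hS]
    have E1 := hE (fun i => xx i - tt i)
    have E2 := hE (fun i => xx i - 2 * tt i)
    have E3 := hE (fun i => xx i - 3 * tt i)
    have E0 := hE xx
    rw [py1] at E1
    rw [py2] at E2
    rw [py3] at E3
    rw [px] at E0
    rw [E1, E2, E3, E0]
    set a := Real.log ((3 ^ 6 * 8 ^ 16 * 14 ^ 14 : ℕ)) with ha
    set b := Real.log ((2 ^ 4 * 3 ^ 18 * 6 ^ 6 : ℕ)) with hb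
    set s := Real.log ((6 ^ 6 * 3 ^ 18 : ℕ)) with hs
    set L := Real.log (36 : ℕ) with hL
    have key1 : b < a := by
      rw [ha, hb]
      apply Real.log_lt_log (by positivity)
      exact_mod_cast (by norm_num : 2 ^ 4 * 3 ^ 18 * 6 ^ 6 < 3 ^ 6 * 8 ^ 16 * 14 ^ 14)
    have key2 : b + 7 * s + 252 * L < 15 * a := by
      have hN : (2 ^ 4 * 3 ^ 18 * 6 ^ 6) * (6 ^ 6 * 3 ^ 18) ^ 7 * 36 ^ 252 <
          (3 ^ 6 * 8 ^ 16 * 14 ^ 14) ^ 15 := by norm_num
      have hR : (((2 ^ 4 * 3 ^ 18 * 6 ^ 6 : ℕ) : ℝ)) * ((6 ^ 6 * 3 ^ 18 : ℕ) : ℝ) ^ 7 *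
          ((36 : ℕ) : ℝ) ^ 252 < ((3 ^ 6 * 8 ^ 16 * 14 ^ 14 : ℕ) : ℝ) ^ 15 := by
        exact_mod_cast hN
      have hl := Real.log_lt_log (by positivity) hR
      rw [Real.log_mul (by positivity) (by positivity), Real.log_mul (by positivity)
        (by positivity), Real.log_pow, Real.log_pow, Real.log_pow] at hl
      push_cast at hl ⊢
      rw [ha, hb, hs, hL]
      push_cast
      linarith
    have e36 : (((36 : ℕ) : ℝ)) = 36 := by norm_num
    rw [e36]
    nlinarith [mul_nonneg (sub_nonneg.2 hσ) (sub_nonneg.2 key1.le)]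

end Vale.P141
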