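import Vale.Agent.P141.Mods

/-!
# P141: module PUSH
-/

open MeasureTheory Filter Topology
open scoped ENNReal NNReal

namespace Vale.P141

/-- Generalised Hölder inequality for finite sums, `θ₁+θ₂+θ₃ ≥ 1`. -/
theorem gen_holder {ι : Type*} (W : Finset ι) (a₁ a₂ a₃ : ι → ℝ) (h1 : ∀ i, 0 ≤ a₁ i)
    (h2 : ∀ i, 0 ≤ a₂ i) (h3 : ∀ i, 0 ≤ a₃ i) {p₁ p₂ p₃ : ℝ} (hp1 : 0 < p₁) (hp2 : 0 < p₂)
    (hp3 : 0 < p₃) (hs : 1 ≤ 1 / p₁ + 1 / p₂ + 1 / p₃) {A₁ A₂ A₃ : ℝ}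
    (hA1 : ∑ i ∈ W, a₁ i ^ p₁ ≤ A₁) (hA2 : ∑ i ∈ W, a₂ i ^ p₂ ≤ A₂)
    (hA3 : ∑ i ∈ W, a₃ i ^ p₃ ≤ A₃) :
    ∑ i ∈ W, a₁ i * a₂ i * a₃ i ≤ A₁ ^ (1 / p₁) * A₂ ^ (1 / p₂) * A₃ ^ (1 / p₃) := by
  have n1 : 0 ≤ A₁ := le_trans (Finset.sum_nonneg fun i _ => Real.rpow_nonneg (h1 i) _) hA1
  have n2 : 0 ≤ A₂ := le_trans (Finset.sum_nonneg fun i _ => Real.rpow_nonneg (h2 i) _) hA2
  have n3 : 0 ≤ A₃ := le_trans (Finset.sum_nonneg fun i _ => Real.rpow_nonneg (h3 i) _) hA3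
  have hzero : ∀ (a : ι → ℝ) (p A : ℝ), (∀ i, 0 ≤ a i) → 0 < p → ∑ i ∈ W, a i ^ p ≤ A →
      A = 0 → ∀ i ∈ W, a i = 0 := by
    intro a p A ha hp hA h0 i hi
    have hz : ∑ i ∈ W, a i ^ p = 0 :=
      le_antisymm (h0 ▸ hA) (Finset.sum_nonneg fun i _ => Real.rpow_nonneg (ha i) _)
    have := (Finset.sum_eq_zero_iff_of_nonneg (fun i _ => Real.rpow_nonneg (ha i) _)).1 hz i hi
    exact (Real.rpow_eq_zero (ha i) hp.ne').1 this
  have rhs0 : 0 ≤ A₁ ^ (1 / p₁) * A₂ ^ (1 / p₂) * A₃ ^ (1 / p₃) := by positivity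
  by_cases z1 : A₁ = 0
  · rw [Finset.sum_eq_zero]
    · exact rhs0
    · intro i hi
      rw [hzero a₁ p₁ A₁ h1 hp1 hA1 z1 i hi]; ring
  by_cases z2 : A₂ = 0
  · rw [Finset.sum_eq_zero]
    · exact rhs0
    · intro i hi
      rw [hzero a₂ p₂ A₂ h2 hp2 hA2 z2 i hi]; ring
  by_cases z3 : A₃ = 0
  · rw [Finset.sum_eq_zero]
    · exact rhs0
    · intro i hi
      rw [hzero a₃ p₃ A₃ h3 hp3 hA3 z3 i hi]; ring
  have q1 : 0 < A₁ := lt_of_le_of_ne n1 (Ne.symm z1)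
  have q2 : 0 < A₂ := lt_of_le_of_ne n2 (Ne.symm z2)
  have q3 : 0 < A₃ := lt_of_le_of_ne n3 (Ne.symm z3)
  set σ : ℝ := 1 / p₁ + 1 / p₂ + 1 / p₃ with hσ
  have hσ0 : 0 < σ := by linarith
  have hterm : ∀ (a : ι → ℝ) (p A : ℝ), (∀ i, 0 ≤ a i) → 0 < p → 0 < A →
      ∑ i ∈ W, a i ^ p ≤ A → ∀ i ∈ W, a i ≤ A ^ (1 / p) * (a i ^ p / A) ^ (1 / p / σ) := by
    intro a p A ha hp hA hsum i hi
    have hle : a i ^ p / A ≤ 1 := by
      rw [div_le_one hA]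
      exact (Finset.single_le_sum (fun i _ => Real.rpow_nonneg (ha i) _) hi).trans hsum
    have h0 : 0 ≤ a i ^ p / A := div_nonneg (Real.rpow_nonneg (ha i) _) hA.le
    have e : a i = A ^ (1 / p) * (a i ^ p / A) ^ (1 / p) := by
      rw [← Real.mul_rpow hA.le h0]
      rw [mul_div_cancel₀ _ hA.ne', ← Real.rpow_mul (ha i), mul_one_div_cancel hp.ne',
        Real.rpow_one]
    calc a i = A ^ (1 / p) * (a i ^ p / A) ^ (1 / p) := e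
      _ ≤ A ^ (1 / p) * (a i ^ p / A) ^ (1 / p / σ) := by
        apply mul_le_mul_of_nonneg_left _ (by positivity)
        rcases eq_or_lt_of_le h0 with h00 | h00
        · rw [← h00, Real.zero_rpow (by positivity), Real.zero_rpow (by positivity)]
        · apply Real.rpow_le_rpow_of_exponent_ge h00 hle
          rw [div_le_iff₀ hσ0]
          have : 0 < 1 / p := by positivity
          nlinarith
  have hpt : ∀ i ∈ W, a₁ i * a₂ i * a₃ i ≤ A₁ ^ (1 / p₁) * A₂ ^ (1 / p₂) * A₃ ^ (1 / p₃) *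
      (1 / p₁ / σ * (a₁ i ^ p₁ / A₁) + 1 / p₂ / σ * (a₂ i ^ p₂ / A₂) +
        1 / p₃ / σ * (a₃ i ^ p₃ / A₃)) := by
    intro i hi
    have t1 := hterm a₁ p₁ A₁ h1 hp1 q1 hA1 i hi
    have t2 := hterm a₂ p₂ A₂ h2 hp2 q2 hA2 i hi
    have t3 := hterm a₃ p₃ A₃ h3 hp3 q3 hA3 i hi
    have b1 : 0 ≤ a₁ i ^ p₁ / A₁ := div_nonneg (Real.rpow_nonneg (h1 i) _) n1
    have b2 : 0 ≤ a₂ i ^ p₂ / A₂ := div_nonneg (Real.rpow_nonneg (h2 i) _) n2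
    have b3 : 0 ≤ a₃ i ^ p₃ / A₃ := div_nonneg (Real.rpow_nonneg (h3 i) _) n3
    have am := Real.geom_mean_le_arith_mean3_weighted (w₁ := 1 / p₁ / σ) (w₂ := 1 / p₂ / σ)
      (w₃ := 1 / p₃ / σ) (by positivity) (by positivity) (by positivity) b1 b2 b3 (by
        rw [← add_div, ← add_div, ← hσ, div_self hσ0.ne'])
    calc a₁ i * a₂ i * a₃ i
        ≤ (A₁ ^ (1 / p₁) * (a₁ i ^ p₁ / A₁) ^ (1 / p₁ / σ)) *
          (A₂ ^ (1 / p₂) * (a₂ i ^ p₂ / A₂) ^ (1 / p₂ / σ)) *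
          (A₃ ^ (1 / p₃) * (a₃ i ^ p₃ / A₃) ^ (1 / p₃ / σ)) := by
          apply mul_le_mul (mul_le_mul t1 t2 (h2 i) (by positivity)) t3 (h3 i) (by positivity)
      _ = A₁ ^ (1 / p₁) * A₂ ^ (1 / p₂) * A₃ ^ (1 / p₃) *
          ((a₁ i ^ p₁ / A₁) ^ (1 / p₁ / σ) * (a₂ i ^ p₂ / A₂) ^ (1 / p₂ / σ) *
            (a₃ i ^ p₃ / A₃) ^ (1 / p₃ / σ)) := by ring
      _ ≤ _ := by
          apply mul_le_mul_of_nonneg_left am (by positivity)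
  refine (Finset.sum_le_sum hpt).trans ?_
  rw [← Finset.mul_sum]
  apply mul_le_of_le_one_right (by positivity)
  rw [Finset.sum_add_distrib, Finset.sum_add_distrib, ← Finset.mul_sum, ← Finset.mul_sum,
    ← Finset.mul_sum, ← Finset.sum_div, ← Finset.sum_div, ← Finset.sum_div]
  have c1 : (∑ i ∈ W, a₁ i ^ p₁) / A₁ ≤ 1 := (div_le_one q1).2 hA1
  have c2 : (∑ i ∈ W, a₂ i ^ p₂) / A₂ ≤ 1 := (div_le_one q2).2 hA2
  have c3 : (∑ i ∈ W, a₃ i ^ p₃) / A₃ ≤ 1 := (div_le_one q3).2 hA3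
  have d1 : 0 ≤ 1 / p₁ / σ := by positivity
  have d2 : 0 ≤ 1 / p₂ / σ := by positivity
  have d3 : 0 ≤ 1 / p₃ / σ := by positivity
  calc _ ≤ 1 / p₁ / σ * 1 + 1 / p₂ / σ * 1 + 1 / p₃ / σ * 1 := by gcongr
    _ = 1 := by
      rw [mul_one, mul_one, mul_one, ← add_div, ← add_div, ← hσ, div_self hσ0.ne']

section

variable {K N : ℕ} [NeZero N]

/-- The push-forward in `ℓ^p` of the fibres. -/
noncomputable def pushG (φ : (Fin K → ℤ) →+ ZMod N) (A : Finset (Fin K → ℤ))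
    (F : (Fin K → ℤ) → ℝ) (p : ℝ) (a : ZMod N) : ℝ :=
  (∑ z ∈ A.filter (fun z => φ z = a), F z ^ p) ^ (1 / p)

theorem pushG_nonneg (φ : (Fin K → ℤ) →+ ZMod N) (A : Finset (Fin K → ℤ))
    {F : (Fin K → ℤ) → ℝ} (hF : ∀ z, 0 ≤ F z) (p : ℝ) (a : ZMod N) : 0 ≤ pushG φ A F p a :=
  Real.rpow_nonneg (Finset.sum_nonneg fun z _ => Real.rpow_nonneg (hF z) _) _

theorem pushG_pow (φ : (Fin K → ℤ) →+ ZMod N) (A : Finset (Fin K → ℤ))
    {F : (Fin K → ℤ) → ℝ} (hF : ∀ z, 0 ≤ F z) {p : ℝ} (hp : 0 < p) (a : ZMod N) :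
    pushG φ A F p a ^ p = ∑ z ∈ A.filter (fun z => φ z = a), F z ^ p := by
  unfold pushG
  rw [← Real.rpow_mul (Finset.sum_nonneg fun z _ => Real.rpow_nonneg (hF z) _),
    one_div_mul_cancel hp.ne', Real.rpow_one]

theorem pushG_sum (φ : (Fin K → ℤ) →+ ZMod N) (A : Finset (Fin K → ℤ))
    {F : (Fin K → ℤ) → ℝ} (hF : ∀ z, 0 ≤ F z) {p : ℝ} (hp : 0 < p) :
    ∑ a, pushG φ A F p a ^ p = ∑ z ∈ A, F z ^ p := by
  simp_rw [pushG_pow φ A hF hp]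
  exact Finset.sum_fiberwise A φ (fun z => F z ^ p)

theorem fibre_le (φ : (Fin K → ℤ) →+ ZMod N) (A : Finset (Fin K → ℤ))
    {F : (Fin K → ℤ) → ℝ} (hF : ∀ z, 0 ≤ F z) (hA : ∀ z, z ∉ A → F z = 0) {p : ℝ}
    (hp : 0 < p) (x : Fin K → ℤ) (W : Finset (Fin K → ℤ)) (c : ℕ) (hc : c ≠ 0)
    (τ : ZMod N) :
    ∑ t ∈ W.filter (fun t => φ t = τ), F (x - c • t) ^ p ≤
      ∑ z ∈ A.filter (fun z => φ z = φ x - c * τ), F z ^ p := by
  classical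
  have hinj : Function.Injective (fun t : Fin K → ℤ => x - c • t) := by
    intro t t' h
    have h' : x - c • t = x - c • t' := h
    have h2 : c • t = c • t' := by
      have := congrArg (fun y => x - y) h'
      simpa using this
    funext j
    have h3 := congrFun h2 j
    simp only [Pi.smul_apply, nsmul_eq_mul] at h3
    have hc' : (c : ℤ) ≠ 0 := by exact_mod_cast hc
    exact mul_left_cancel₀ hc' h3
  have e : ∑ t ∈ W.filter (fun t => φ t = τ), F (x - c • t) ^ p =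
      ∑ z ∈ (W.filter (fun t => φ t = τ)).image (fun t => x - c • t), F z ^ p := by
    rw [Finset.sum_image (fun a _ b _ h => hinj h)]
  rw [e]
  have e2 : ∑ z ∈ (W.filter (fun t => φ t = τ)).image (fun t => x - c • t), F z ^ p =
      ∑ z ∈ ((W.filter (fun t => φ t = τ)).image (fun t => x - c • t)).filter (fun z => z ∈ A),
        F z ^ p := by
    rw [Finset.sum_filter]
    apply Finset.sum_congr rfl
    intro z _
    by_cases hz : z ∈ A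
    · rw [if_pos hz]
    · rw [if_neg hz, hA z hz, Real.zero_rpow hp.ne']
  rw [e2]
  apply Finset.sum_le_sum_of_subset_of_nonneg
  · intro z hz
    rw [Finset.mem_filter, Finset.mem_image] at hz
    obtain ⟨⟨t, ht, rfl⟩, hzA⟩ := hz
    rw [Finset.mem_filter] at ht ⊢
    refine ⟨hzA, ?_⟩
    rw [map_sub, map_nsmul, ht.2, nsmul_eq_mul]
  · intro z _ _
    exact Real.rpow_nonneg (hF z) _

end

theorem push_main : PUSHStmt := by
  intro p₁ p₂ p₃ hp1 hp2 hp3 hs K N _ φ A F₁ F₂ F₃ h1 h2 h3 s1 s2 s3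
  have q1 : 0 < p₁ := by linarith
  have q2 : 0 < p₂ := by linarith
  have q3 : 0 < p₃ := by linarith
  refine ⟨pushG φ A F₁ p₁, pushG φ A F₂ p₂, pushG φ A F₃ p₃, pushG_nonneg φ A h1 p₁,
    pushG_nonneg φ A h2 p₂, pushG_nonneg φ A h3 p₃, pushG_sum φ A h1 q1, pushG_sum φ A h2 q2,
    pushG_sum φ A h3 q3, ?_⟩
  intro x W
  rw [← Finset.sum_fiberwise W φ (fun t => F₁ (x - t) * F₂ (x - 2 • t) * F₃ (x - 3 • t))]
  apply Finset.sum_le_sum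
  intro τ _
  have f1 := fibre_le φ A h1 s1 q1 x W 1 (by norm_num) τ
  have f2 := fibre_le φ A h2 s2 q2 x W 2 (by norm_num) τ
  have f3 := fibre_le φ A h3 s3 q3 x W 3 (by norm_num) τ
  simp only [one_smul, Nat.cast_one, one_mul] at f1
  have := gen_holder (W.filter (fun t => φ t = τ)) (fun t => F₁ (x - t))
    (fun t => F₂ (x - 2 • t)) (fun t => F₃ (x - 3 • t)) (fun t => h1 _) (fun t => h2 _)
    (fun t => h3 _) q1 q2 q3 hs f1 f2 f3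
  refine this.trans (le_of_eq ?_)
  unfold pushG
  push_cast
  rfl

end Vale.P141
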