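import Vale.Agent.P141.Mods

/-!
# P141: module RGH
-/

open MeasureTheory Filter Topology
open scoped ENNReal NNReal

namespace Vale.P141

theorem rgh_main : RGHStmt := by
  intro hANA hHOM hPUSH p₁ p₂ p₃ r hp1 hp2 hp3 hr hs hb B
  obtain ⟨C, hC, HA⟩ := hANA p₁ p₂ p₃ r hp1 hp2 hp3 hr hb
  obtain ⟨D, HD⟩ := hHOM B
  refine ⟨(2 : ℝ) ^ (1 / r) * C * (D + 1), by positivity, ?_⟩
  intro K X W A F₁ F₂ F₃ h1 h2 h3 s1 s2 s3 hXB hXne lam hlam hX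
  obtain ⟨N, hN0, φ, hND, hcard⟩ := HD K X hXne hXB
  obtain ⟨G₁, G₂, G₃, g1, g2, g3, e1, e2, e3, hG⟩ :=
    hPUSH p₁ p₂ p₃ hp1 hp2 hp3 hs K N φ A F₁ F₂ F₃ h1 h2 h3 s1 s2 s3
  have hY : ∀ y ∈ X.image φ, lam ≤
      ∑ τ : ZMod N, G₁ (y - τ) * G₂ (y - 2 * τ) * G₃ (y - 3 * τ) := by
    intro y hy
    obtain ⟨x, hx, rfl⟩ := Finset.mem_image.1 hy
    exact (hX x hx).trans (hG x W)
  have key := HA N G₁ G₂ G₃ g1 g2 g3 (X.image φ) lam hlam hY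
  rw [e1, e2, e3] at key
  set P := (∑ z ∈ A, F₁ z ^ p₁) ^ (1 / p₁) * (∑ z ∈ A, F₂ z ^ p₂) ^ (1 / p₂) *
        (∑ z ∈ A, F₃ z ^ p₃) ^ (1 / p₃) with hP
  have hP0 : 0 ≤ P := by
    have i1 : 0 ≤ ∑ z ∈ A, F₁ z ^ p₁ := Finset.sum_nonneg fun z _ => Real.rpow_nonneg (h1 z) _
    have i2 : 0 ≤ ∑ z ∈ A, F₂ z ^ p₂ := Finset.sum_nonneg fun z _ => Real.rpow_nonneg (h2 z) _
    have i3 : 0 ≤ ∑ z ∈ A, F₃ z ^ p₃ := Finset.sum_nonneg fun z _ => Real.rpow_nonneg (h3 z) _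
    positivity
  have hXpos : (0 : ℝ) < X.card := by exact_mod_cast hXne.card_pos
  have hcard' : (X.card : ℝ) ≤ 2 * ((X.image φ).card : ℝ) := by exact_mod_cast hcard
  have hND' : (N : ℝ) ≤ D * X.card := by exact_mod_cast hND
  have e4 : (X.card : ℝ) ^ (1 / r - 1) = (X.card : ℝ) ^ (1 / r) / X.card := by
    rw [Real.rpow_sub hXpos, Real.rpow_one]
  rw [e4, mul_div_assoc', div_le_iff₀ hXpos]
  calc lam * (X.card : ℝ) ^ (1 / r)
      ≤ lam * (2 * ((X.image φ).card : ℝ)) ^ (1 / r) := by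
        apply mul_le_mul_of_nonneg_left _ hlam
        exact Real.rpow_le_rpow hXpos.le hcard' (by positivity)
    _ = (2 : ℝ) ^ (1 / r) * (lam * ((X.image φ).card : ℝ) ^ (1 / r)) := by
        rw [Real.mul_rpow (by norm_num) (by positivity)]; ring
    _ ≤ (2 : ℝ) ^ (1 / r) * (C * N * P) := by
        apply mul_le_mul_of_nonneg_left key (by positivity)
    _ ≤ (2 : ℝ) ^ (1 / r) * (C * ((D + 1) * X.card) * P) := by
        have : (N : ℝ) ≤ (D + 1) * X.card := by nlinarith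
        gcongr
    _ = (2 : ℝ) ^ (1 / r) * C * (D + 1) * P * X.card := by ring

end Vale.P141
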