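import Vale.Agent.P141.Mods

/-!
# P141: module TEN (tensor power trick)
-/

open Real Finset Filter Topology

namespace Vale.P141

/-- Exponential growth beats a polynomial. -/
theorem growth {q P C : ℝ} (hP : 0 ≤ P) (k : ℕ)
    (h : ∀ n : ℕ, q ^ n ≤ C * ((n : ℝ) + 1) ^ k * P ^ n) : q ≤ P := by
  by_contra hcon
  push Not at hcon
  rcases eq_or_lt_of_le hP with hP0 | hP0
  · have := h 1
    rw [← hP0] at this hcon
    simp at this
    linarith
  · set ρ := q / P with hρ
    have hρ1 : 1 < ρ := (one_lt_div hP0).2 hcon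
    have hb : ∀ n : ℕ, ρ ^ n ≤ C * ((n : ℝ) + 1) ^ k := by
      intro n
      rw [hρ, div_pow, div_le_iff₀ (by positivity)]
      exact h n
    have hC : 0 < C := by
      have := hb 0
      simp at this
      linarith
    have ht := tendsto_pow_const_div_const_pow_of_one_lt k hρ1
    have hev : ∀ᶠ n : ℕ in atTop, (n : ℝ) ^ k / ρ ^ n < 1 / (C * 2 ^ k) :=
      ht.eventually (gt_mem_nhds (by positivity))
    obtain ⟨n, hn, hn1⟩ := (hev.and (eventually_ge_atTop 1)).exists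
    have hn1' : (1 : ℝ) ≤ n := by exact_mod_cast hn1
    have h1 : ρ ^ n ≤ C * (2 ^ k * (n : ℝ) ^ k) := by
      refine (hb n).trans ?_
      apply mul_le_mul_of_nonneg_left _ hC.le
      rw [← mul_pow]
      exact pow_le_pow_left₀ (by positivity) (by linarith) k
    have hρn : 0 < ρ ^ n := by positivity
    rw [div_lt_div_iff₀ hρn (by positivity)] at hn
    nlinarith

/-- Type of a word: number of occurrences of each letter of `X`. -/
def typ (X : Finset ℤ) (n : ℕ) (x : Fin n → ℤ) : X → Fin (n + 1) := fun d =>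
  ⟨(univ.filter (fun j => x j = (d : ℤ))).card, by
    have := Finset.card_le_card (Finset.filter_subset (fun j => x j = (d : ℤ))
      (univ : Finset (Fin n)))
    rw [Finset.card_univ, Fintype.card_fin] at this
    omega⟩

theorem prod_typ (X : Finset ℤ) (n : ℕ) (x : Fin n → ℤ) (hx : ∀ j, x j ∈ X) (g : ℤ → ℝ) :
    ∏ j, g (x j) = ∏ d : X, g d ^ ((typ X n x d : ℕ)) := by
  have h1 : ∏ j, g (x j) = ∏ d ∈ X, ∏ j ∈ univ.filter (fun j => x j = d), g (x j) :=
    (Finset.prod_fiberwise_of_maps_to (fun j _ => hx j) _).symm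
  rw [h1, ← Finset.prod_coe_sort X]
  apply Finset.prod_congr rfl
  intro d _
  have : ∀ j ∈ univ.filter (fun j => x j = (d : ℤ)), g (x j) = g d := by
    intro j hj
    rw [(Finset.mem_filter.1 hj).2]
  rw [Finset.prod_congr rfl this, Finset.prod_const]
  rfl

theorem ten_main : TENStmt := by
  intro p₁ p₂ p₃ r hp1 hp2 hp3 hr hr1 hR X W A f₁ f₂ f₃ h1 h2 h3 s1 s2 s3
  set s : ℝ := 1 / r - 1 with hs
  have hs0 : 0 < s := by
    have : 1 < 1 / r := by rw [lt_div_iff₀ hr]; linarith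
    rw [hs]; linarith
  set ρ : ℝ := 1 / s with hρ
  have hρ0 : 0 < ρ := by positivity
  set g : ℤ → ℝ := fun x => ∑ t ∈ W, f₁ (x - t) * f₂ (x - 2 * t) * f₃ (x - 3 * t) with hg
  have hg0 : ∀ x, 0 ≤ g x := fun x => Finset.sum_nonneg fun t _ =>
    mul_nonneg (mul_nonneg (h1 _) (h2 _)) (h3 _)
  set S : ℝ := ∑ x ∈ X, g x ^ ρ with hS
  have hS0 : 0 ≤ S := Finset.sum_nonneg fun x _ => Real.rpow_nonneg (hg0 x) _
  set N₁ := ∑ z ∈ A, f₁ z ^ p₁ with hN1
  set N₂ := ∑ z ∈ A, f₂ z ^ p₂ with hN2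
  set N₃ := ∑ z ∈ A, f₃ z ^ p₃ with hN3
  have n1 : 0 ≤ N₁ := Finset.sum_nonneg fun z _ => Real.rpow_nonneg (h1 z) _
  have n2 : 0 ≤ N₂ := Finset.sum_nonneg fun z _ => Real.rpow_nonneg (h2 z) _
  have n3 : 0 ≤ N₃ := Finset.sum_nonneg fun z _ => Real.rpow_nonneg (h3 z) _
  set P : ℝ := N₁ ^ (1 / p₁) * N₂ ^ (1 / p₂) * N₃ ^ (1 / p₃) with hP
  have hP0 : 0 ≤ P := by positivity
  show S ^ s ≤ P
  rcases eq_or_lt_of_le hS0 with hSz | hSpos
  · rw [← hSz, Real.zero_rpow hs0.ne']; exact hP0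
  -- bound of the letters
  set B : ℕ := X.sup (fun x => x.natAbs) with hB
  obtain ⟨C, hC, HR⟩ := hR B
  obtain ⟨k, hk⟩ := exists_nat_ge (s * X.card)
  apply growth (C := C) hP0 k
  intro n
  set F₁ : (Fin n → ℤ) → ℝ := fun z => ∏ j, f₁ (z j) with hF1
  set F₂ : (Fin n → ℤ) → ℝ := fun z => ∏ j, f₂ (z j) with hF2
  set F₃ : (Fin n → ℤ) → ℝ := fun z => ∏ j, f₃ (z j) with hF3
  set An : Finset (Fin n → ℤ) := Fintype.piFinset (fun _ => A) with hAn
  set Wn : Finset (Fin n → ℤ) := Fintype.piFinset (fun _ => W) with hWn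
  set Xn : Finset (Fin n → ℤ) := Fintype.piFinset (fun _ => X) with hXn
  have hinner : ∀ x : Fin n → ℤ,
      ∑ t ∈ Wn, F₁ (x - t) * F₂ (x - 2 • t) * F₃ (x - 3 • t) = ∏ j, g (x j) := by
    intro x
    simp only [hg, hWn]
    rw [Finset.prod_univ_sum]
    apply Finset.sum_congr rfl
    intro t _
    simp only [hF1, hF2, hF3, Pi.sub_apply, Pi.smul_apply, nsmul_eq_mul]
    rw [← Finset.prod_mul_distrib, ← Finset.prod_mul_distrib]
    push_cast
    rfl
  have hnorm : ∀ (f : ℤ → ℝ) (p : ℝ), (∀ z, 0 ≤ f z) →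
      ∑ z ∈ An, (∏ j, f (z j)) ^ p = (∑ z ∈ A, f z ^ p) ^ n := by
    intro f p hf
    have : ∀ z ∈ An, (∏ j, f (z j)) ^ p = ∏ j, f (z j) ^ p := by
      intro z _
      rw [← Real.finset_prod_rpow _ _ (fun j _ => hf (z j))]
    rw [Finset.sum_congr rfl this]
    have h := Finset.prod_univ_sum (fun _ : Fin n => A) (fun _ z => f z ^ p)
    rw [Finset.prod_const, Finset.card_univ, Fintype.card_fin] at h
    rw [h]
  have htot : ∑ x ∈ Xn, (∏ j, g (x j)) ^ ρ = S ^ n := by
    have : ∀ x ∈ Xn, (∏ j, g (x j)) ^ ρ = ∏ j, g (x j) ^ ρ := by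
      intro x _
      rw [← Real.finset_prod_rpow _ _ (fun j _ => hg0 (x j))]
    rw [Finset.sum_congr rfl this]
    have h := Finset.prod_univ_sum (fun _ : Fin n => X) (fun _ z => g z ^ ρ)
    rw [Finset.prod_const, Finset.card_univ, Fintype.card_fin] at h
    rw [hS, h]
  -- types
  set val : (X → Fin (n + 1)) → ℝ := fun v => ∏ d : X, g d ^ ((v d : ℕ)) with hval
  have hval0 : ∀ v, 0 ≤ val v := fun v => Finset.prod_nonneg fun d _ => pow_nonneg (hg0 _) _
  have hmem : ∀ x ∈ Xn, ∀ j, x j ∈ X := fun x hx j => Fintype.mem_piFinset.1 hx j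
  have hsplit : ∑ x ∈ Xn, (∏ j, g (x j)) ^ ρ =
      ∑ v : X → Fin (n + 1), ((Xn.filter (fun x => typ X n x = v)).card : ℝ) * val v ^ ρ := by
    rw [← Finset.sum_fiberwise Xn (typ X n) (fun x => (∏ j, g (x j)) ^ ρ)]
    apply Finset.sum_congr rfl
    intro v _
    have : ∀ x ∈ Xn.filter (fun x => typ X n x = v), (∏ j, g (x j)) ^ ρ = val v ^ ρ := by
      intro x hx
      rw [Finset.mem_filter] at hx
      rw [prod_typ X n x (hmem x hx.1) g, hx.2]
    rw [Finset.sum_congr rfl this, Finset.sum_const, nsmul_eq_mul]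
  have hex : ∃ v : X → Fin (n + 1), S ^ n / ((n : ℝ) + 1) ^ X.card ≤
      ((Xn.filter (fun x => typ X n x = v)).card : ℝ) * val v ^ ρ := by
    by_contra hcon
    push Not at hcon
    have hlt := Finset.sum_lt_sum_of_nonempty (s := (univ : Finset (X → Fin (n + 1))))
      Finset.univ_nonempty (fun v _ => hcon v)
    rw [← hsplit, htot, Finset.sum_const, Finset.card_univ, Fintype.card_fun,
      Fintype.card_fin, Fintype.card_coe, nsmul_eq_mul] at hlt
    push_cast at hlt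
    rw [mul_div_cancel₀ _ (by positivity)] at hlt
    exact lt_irrefl _ hlt
  obtain ⟨v, hv⟩ := hex
  set Z := Xn.filter (fun x => typ X n x = v) with hZ
  have hlhs : 0 < S ^ n / ((n : ℝ) + 1) ^ X.card := by positivity
  have hZne : Z.Nonempty := by
    rw [Finset.nonempty_iff_ne_empty]
    intro h0
    rw [h0, Finset.card_empty] at hv
    simp at hv
    linarith
  have hrough := HR n Z Wn An F₁ F₂ F₃ (fun z => Finset.prod_nonneg fun j _ => h1 _)
    (fun z => Finset.prod_nonneg fun j _ => h2 _) (fun z => Finset.prod_nonneg fun j _ => h3 _)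
    (by
      intro z hz
      have : ∃ j, z j ∉ A := by
        by_contra hcon
        push Not at hcon
        exact hz (Fintype.mem_piFinset.2 hcon)
      obtain ⟨j, hj⟩ := this
      exact Finset.prod_eq_zero (mem_univ j) (s1 _ hj))
    (by
      intro z hz
      have : ∃ j, z j ∉ A := by
        by_contra hcon
        push Not at hcon
        exact hz (Fintype.mem_piFinset.2 hcon)
      obtain ⟨j, hj⟩ := this
      exact Finset.prod_eq_zero (mem_univ j) (s2 _ hj))
    (by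
      intro z hz
      have : ∃ j, z j ∉ A := by
        by_contra hcon
        push Not at hcon
        exact hz (Fintype.mem_piFinset.2 hcon)
      obtain ⟨j, hj⟩ := this
      exact Finset.prod_eq_zero (mem_univ j) (s3 _ hj))
    (by
      intro x hx j
      have hxX := hmem x (Finset.mem_filter.1 hx).1 j
      have : (x j).natAbs ≤ B := Finset.le_sup (f := fun x : ℤ => x.natAbs) hxX
      rw [Int.abs_eq_natAbs]
      exact_mod_cast this)
    hZne (val v) (hval0 v)
    (by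
      intro x hx
      rw [hinner, prod_typ X n x (hmem x (Finset.mem_filter.1 hx).1) g,
        (Finset.mem_filter.1 hx).2])
  rw [hnorm f₁ p₁ h1, hnorm f₂ p₂ h2, hnorm f₃ p₃ h3] at hrough
  have hPn : ((∑ z ∈ A, f₁ z ^ p₁) ^ n) ^ (1 / p₁) * ((∑ z ∈ A, f₂ z ^ p₂) ^ n) ^ (1 / p₂) *
      ((∑ z ∈ A, f₃ z ^ p₃) ^ n) ^ (1 / p₃) = P ^ n := by
    rw [hP, mul_pow, mul_pow]
    rw [← hN1, ← hN2, ← hN3]
    rw [← Real.rpow_natCast N₁, ← Real.rpow_natCast N₂, ← Real.rpow_natCast N₃,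
      ← Real.rpow_natCast (N₁ ^ (1 / p₁)), ← Real.rpow_natCast (N₂ ^ (1 / p₂)),
      ← Real.rpow_natCast (N₃ ^ (1 / p₃)), ← Real.rpow_mul n1, ← Real.rpow_mul n2,
      ← Real.rpow_mul n3, ← Real.rpow_mul n1, ← Real.rpow_mul n2, ← Real.rpow_mul n3]
    congr 1
    · congr 1 <;> congr 1 <;> ring
    · congr 1; ring
  rw [hPn] at hrough
  -- take the `s`-th power of the pigeonhole inequality
  have hpow := Real.rpow_le_rpow hlhs.le hv hs0.le
  rw [Real.mul_rpow (by positivity) (Real.rpow_nonneg (hval0 v) _),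
    ← Real.rpow_mul (hval0 v), hρ, one_div_mul_cancel hs0.ne', Real.rpow_one,
    Real.div_rpow (by positivity) (by positivity)] at hpow
  have hmain : (S ^ n) ^ s / (((n : ℝ) + 1) ^ X.card) ^ s ≤ C * P ^ n := by
    refine hpow.trans ?_
    rw [mul_comm]; exact hrough
  have e1 : (S ^ n) ^ s = (S ^ s) ^ n := by
    rw [← Real.rpow_natCast S, ← Real.rpow_natCast (S ^ s), ← Real.rpow_mul hS0,
      ← Real.rpow_mul hS0, mul_comm]
  have e2 : (((n : ℝ) + 1) ^ X.card) ^ s ≤ ((n : ℝ) + 1) ^ k := by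
    rw [← Real.rpow_natCast ((n : ℝ) + 1) X.card, ← Real.rpow_natCast ((n : ℝ) + 1) k,
      ← Real.rpow_mul (by positivity)]
    apply Real.rpow_le_rpow_of_exponent_le
    · have : (0 : ℝ) ≤ n := by positivity
      linarith
    · rw [mul_comm]; exact hk
  rw [e1, div_le_iff₀ (by positivity)] at hmain
  calc (S ^ s) ^ n ≤ C * P ^ n * (((n : ℝ) + 1) ^ X.card) ^ s := hmain
    _ ≤ C * P ^ n * ((n : ℝ) + 1) ^ k := by
        apply mul_le_mul_of_nonneg_left e2 (by positivity)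
    _ = C * ((n : ℝ) + 1) ^ k * P ^ n := by ring

end Vale.P141
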