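import Vale.Agent.P141.Final
import Vale.Agent.P141.ANA
import Vale.Agent.P141.HOM
import Vale.Agent.P141.PUSH
import Vale.Agent.P141.RGH
import Vale.Agent.P141.TEN
import Vale.Agent.P141.ENT
import Vale.Agent.P141.NUM
import Vale.Agent.P141.FACE2
import Vale.Agent.P141.LOGF
import Vale.Agent.P141.LIM

open MeasureTheory Filter Topology
open scoped ENNReal NNReal SchwartzMap

namespace Vale.P141

/-- Tuples with `r` arbitrarily close to `1/2` at which `T` is unbounded. -/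
theorem near_half (r₀ : ℝ≥0∞) (hr₀ : r₀ < 2⁻¹) :
    ∃ p₁ p₂ p₃ r : ℝ≥0∞, IsHolder p₁ p₂ p₃ r ∧ r₀ < r ∧ r < 2⁻¹ ∧ ¬ BoundedAt p₁ p₂ p₃ r := by
  -- work with the reciprocals
  have h2 : (2 : ℝ≥0∞) < r₀⁻¹ := ENNReal.lt_inv_iff_lt_inv.1 hr₀
  obtain ⟨c, hc0, hc1, hc2⟩ : ∃ c : ℝ, 0 < c ∧ c < 1 / 2 ∧
      ENNReal.ofReal (2 + 2 * c) < r₀⁻¹ := by
    by_cases htop : r₀⁻¹ = ⊤
    · exact ⟨1 / 4, by norm_num, by norm_num, by rw [htop]; exact ENNReal.ofReal_lt_top⟩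
    · have h3 : (2 : ℝ) < r₀⁻¹.toReal := by
        have := (ENNReal.toReal_lt_toReal (by norm_num) htop).2 h2
        simpa using this
      refine ⟨min (1 / 4) ((r₀⁻¹.toReal - 2) / 4), by
        apply lt_min (by norm_num); linarith, lt_of_le_of_lt (min_le_left _ _) (by norm_num), ?_⟩
      refine lt_of_lt_of_eq ?_ (ENNReal.ofReal_toReal htop)
      apply (ENNReal.ofReal_lt_ofReal_iff (by linarith)).2
      have := min_le_right (1 / 4 : ℝ) ((r₀⁻¹.toReal - 2) / 4)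
      linarith
  set θ : ℝ := 1 / 2 + c with hθ
  have hθ0 : 0 < θ := by rw [hθ]; linarith
  have hθ1 : θ < 1 := by rw [hθ]; linarith
  set P : ℝ≥0∞ := (ENNReal.ofReal θ)⁻¹ with hP
  have hPinv : P⁻¹ = ENNReal.ofReal θ := by rw [hP, inv_inv]
  have hP1 : 1 < P := by
    rw [hP, ENNReal.one_lt_inv, ← ENNReal.ofReal_one]
    exact (ENNReal.ofReal_lt_ofReal_iff one_pos).2 hθ1
  have hsum : 1 < P⁻¹ + P⁻¹ := by
    rw [hPinv, ← ENNReal.ofReal_add hθ0.le hθ0.le, ← ENNReal.ofReal_one]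
    exact (ENNReal.ofReal_lt_ofReal_iff (by linarith)).2 (by rw [hθ]; linarith)
  obtain ⟨q, hq1, H⟩ := face2 ana_main hom_main push_main rgh_main ten_main face2_main
    logf_main hP1 hP1 hsum
  -- choose `p₂` between `1` and `min q (1-c)^{-1}`
  set Q : ℝ≥0∞ := min q (ENNReal.ofReal (1 - c))⁻¹ with hQ
  have hQ1 : 1 < Q := by
    apply lt_min hq1
    rw [ENNReal.one_lt_inv, ← ENNReal.ofReal_one]
    exact (ENNReal.ofReal_lt_ofReal_iff one_pos).2 (by linarith)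
  obtain ⟨p, hp1, hpQ⟩ := exists_between hQ1
  have hpq : p < q := hpQ.trans_le (min_le_left _ _)
  have hpc : ENNReal.ofReal (1 - c) < p⁻¹ :=
    ENNReal.lt_inv_iff_lt_inv.1 (hpQ.trans_le (min_le_right _ _))
  have hpi1 : p⁻¹ < 1 := ENNReal.inv_lt_one.2 hp1
  set s : ℝ≥0∞ := P⁻¹ + p⁻¹ + P⁻¹ with hs
  have hs2 : 2 < s := by
    have e : (2 : ℝ≥0∞) ≤ ENNReal.ofReal θ + ENNReal.ofReal (1 - c) + ENNReal.ofReal θ := by
      rw [← ENNReal.ofReal_add hθ0.le (by linarith), ← ENNReal.ofReal_add (by linarith) hθ0.le]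
      have : (2 : ℝ≥0∞) = ENNReal.ofReal 2 := by norm_num
      rw [this]
      apply ENNReal.ofReal_le_ofReal
      rw [hθ]; linarith
    refine lt_of_le_of_lt e ?_
    rw [hs, hPinv]
    apply ENNReal.add_lt_add_right ENNReal.ofReal_ne_top
    exact ENNReal.add_lt_add_left ENNReal.ofReal_ne_top hpc
  have hs3 : s < r₀⁻¹ := by
    refine lt_of_le_of_lt ?_ hc2
    have e : ENNReal.ofReal (2 + 2 * c) = ENNReal.ofReal θ + 1 + ENNReal.ofReal θ := by
      rw [← ENNReal.ofReal_one, ← ENNReal.ofReal_add hθ0.le (by norm_num),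
        ← ENNReal.ofReal_add (by linarith) hθ0.le]
      congr 1
      rw [hθ]; ring
    rw [e, hs, hPinv]
    gcongr
  refine ⟨P, p, P, s⁻¹, ⟨hP1, hp1, hP1, ?_, ?_, ?_⟩, ?_, ?_, ?_⟩
  · exact ENNReal.inv_pos.2 (hs3.trans_le le_top).ne
  · exact ENNReal.inv_lt_top.2 (lt_trans (by norm_num) hs2)
  · rw [inv_inv]
  · exact ENNReal.lt_inv_iff_lt_inv.1 (by simpa using hs3)
  · exact ENNReal.inv_lt_inv.2 hs2
  · apply H p s⁻¹ hpq
    exact ⟨hP1, hp1, hP1, ENNReal.inv_pos.2 (hs3.trans_le le_top).ne,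
      ENNReal.inv_lt_top.2 (lt_trans (by norm_num) hs2), by rw [inv_inv]⟩

end Vale.P141
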